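import Vale.Agent.P224.R2.H579.LwBound
import Vale.Agent.P224.R2.H679.PW7

/-!
The mean normal law.
-/

namespace Vale.Agent.P224.R2.H579

open MeasureTheory Set Filter Function Real Finset Matrix Vale.Agent.P224.R2.H728

set_option linter.unusedSectionVars false

lemma Ew_mono {δ η η' : ℝ} (hδ : 0 ≤ δ) (hδ1 : δ < 1) (hη : 0 ≤ η) (h : η ≤ η') :
    Ew δ η ≤ Ew δ η' := by
  unfold Ew
  have : 0 < 1 - δ := by linarith
  have h0 : 0 ≤ η' := hη.trans h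
  gcongr

section

variable {ι Ω : Type*} [Fintype ι] [DecidableEq ι] [MeasurableSpace Ω] {μ : Measure Ω}
  {m : ℝ} {x N : ι → Ω → ℝ} {j : ι → ℝ}

variable (h : T0Data μ m x N)
include h

/-- the pointwise lemma along the data -/
lemma pw7_data (hm : 0 < m) {ρ : ℝ} (hρ : 0 < ρ) (hρm : ρ ^ 2 + 2 * ρ ≤ (m + 2) / 2)
    (hj : ∀ b, |j b| ≤ ρ) (v : ι → ℝ) (ω : Ω) :
    ∑ a, v a * G7 m j (fun b => x b ω) (fun b => N b ω) a
      ≤ (1 + ρ) * √(∑ a, v a ^ 2) * ∑ b, (N b ω - j b * x b ω) ^ 2 := by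
  have h1 := H679.pw7 (x := fun b => x b ω) (N := fun b => N b ω) (v := v) hρ hρm (h.ux ω)
    (h.uN ω) hj
  refine le_trans (le_of_eq ?_) ((le_abs_self _).trans h1)
  refine Finset.sum_congr rfl fun a _ => ?_
  unfold G7 Mw
  simp only [neg_mul]

/-- **The mean normal law**: the mean normal is at most the square deviation from a linear field,
times the constant `1 + ρ`. -/
theorem e_law (hm : 0 < m) {ρ L : ℝ} (hρ : 0 < ρ) (hρm : ρ ^ 2 + 2 * ρ ≤ (m + 2) / 2)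
    (hj : ∀ b, |j b| ≤ ρ) (hL0 : 0 ≤ L) (hL : ∀ a, L ≤ Lw m j a) :
    L * √(∑ a, m1 μ N a ^ 2) ≤ (1 + ρ) * hh μ (Matrix.diagonal j) x N :=
  law7_min h hm j hL0 hL (pw7_data h hm hρ hρm hj)

/-- the least squares weights are bounded -/
lemma abs_j_le (hm : 0 ≤ m) (hL : LSq μ (Matrix.diagonal j) x N) {δ ρ : ℝ} (hδ : 0 ≤ δ)
    (hδ1 : δ < 1) (hf : fro (De μ x N) ≤ δ ^ 2) (hρ : 0 ≤ ρ)
    (hρ2 : 1 + (m + 2) * (δ / (1 - δ)) ≤ ρ ^ 2) (b : ι) : |j b| ≤ ρ := by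
  have h1 := h.w_le hm hL hδ hδ1 hf b
  exact abs_le_of_sq_le_sq (by linarith) hρ

/-- **The mean normal law in closed form.** -/
theorem e_law_closed (hm : 0 < m) (hL : LSq μ (Matrix.diagonal j) x N) {δ η ρ T : ℝ}
    (hδ : 0 ≤ δ) (hδ1 : δ < 1) (hf : fro (De μ x N) ≤ δ ^ 2)
    (hη : hh μ (Matrix.diagonal j) x N ≤ η) (hρ : 0 < ρ)
    (hρ2 : 1 + (m + 2) * (δ / (1 - δ)) ≤ ρ ^ 2) (hρm : ρ ^ 2 + 2 * ρ ≤ (m + 2) / 2)
    (hT : |∑ b, j b| ≤ (m + 1) * T)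
    (hc : T / 2 + 4 * Ew δ η / (m + 1) ≤ (m - 4) / ((m + 1) * (m + 4)))
    (hpos : 0 ≤ m / (m + 1) - (m - 4) / ((m + 1) * (m + 4)) - T / 2
      - 2 * Ew δ η * (m + 2) / (m + 1)) :
    (m / (m + 1) - (m - 4) / ((m + 1) * (m + 4)) - T / 2 - 2 * Ew δ η * (m + 2) / (m + 1))
      * √(∑ a, m1 μ N a ^ 2) ≤ (1 + ρ) * hh μ (Matrix.diagonal j) x N :=
  e_law h hm hρ hρm (abs_j_le h hm.le hL hδ hδ1 hf hρ.le hρ2) hpos
    (Lw_ge_min h hm hL hδ hδ1 hf hT (Ew_mono hδ hδ1 (h.hh_nonneg _) hη) hc)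

/-- the trace term from the Frobenius norm of the deviation -/
lemma tr_le (hm : 0 < m) (hL : LSq μ (Matrix.diagonal j) x N) {δ ω T : ℝ} (hδ : 0 ≤ δ)
    (hf : fro (De μ x N) ≤ δ ^ 2) (hω : 0 ≤ ω) (hw : ∑ a, (j a ^ 2 - 1) ^ 2 ≤ ω ^ 2)
    (hT0 : 0 ≤ T) (hT : δ ^ 2 * (m + 2 + δ * ω) ≤ ((m + 1) * T) ^ 2) :
    |∑ b, j b| ≤ (m + 1) * T :=
  abs_le_of_sq_le_sq ((h.j_tr_sq hm.le hL hδ hf hω hw).trans hT) (by positivity)

end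

end Vale.Agent.P224.R2.H579
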