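import Vale.Agent.P224.R2.H579.ElJ
import Vale.Agent.P224.R2.H470.MacL
import Vale.Agent.P224.R2.H460.Cl5

/-!
The field of the facts of the mean normal, from a checked list.
-/

namespace Vale.Agent.P224.R2.H579

open MeasureTheory Set Filter Function Real Module Vale.Agent.P224 Vale.Agent.P224.FV
open Vale.Agent.P224.SM2 Vale.Agent.P224.R2.H728 Vale.Agent.P224.R2.H582
open Vale.Agent.P224.R2.H470 Vale.Agent.P224.R2.H460 Vale.Agent.P224.R2.H679
open Vale.Agent.P224.R2.H176 (NearData)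
open Vale.Agent.P224.R2.H204 (okD)
open scoped Topology RealInnerProductSpace ContDiff Manifold

set_option linter.unusedSectionVars false

section

variable {V W M : Type*} [NormedAddCommGroup V] [InnerProductSpace ℝ V] [FiniteDimensional ℝ V]
  [NormedAddCommGroup W] [InnerProductSpace ℝ W] [FiniteDimensional ℝ W]
  [TopologicalSpace M] [ChartedSpace V M]
  [MeasurableSpace V] [BorelSpace V] [MeasurableSpace M] [BorelSpace M]
  [MeasurableSpace W] [BorelSpace W] [IsManifold 𝓘(ℝ, V) ∞ M]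
  [CompactSpace M] [T2Space M]

/-- **The facts of the mean normal for the large weights.** -/
theorem el_field (hW : finrank ℝ W = finrank ℝ V + 2)
    {F : M → W} (hF : SphImm V F) (hmin : ∀ x n, IsUnitNormal V F x n → meanCurv V F x n = 0)
    {N : M → W} {b : OrthonormalBasis (Fin (finrank ℝ W)) ℝ W} {j : Fin (finrank ℝ W) → ℝ}
    {ν0 : ℝ} (hd : NearData V F N b j ν0) {m0 : ℚ} (hm0 : (m0 : ℝ) ≤ finrank ℝ V)
    {els : List ElR} {cs : List CqR} (hok : elsOK m0 okD els cs = true) :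
    ∀ f ∈ els, ∀ ν : ℝ, 5 ≤ finrank ℝ V * ν →
      (∀ a, m2 (nrm (volM V F)) (co b N) (co b N) a a ≤ ν) → ν ≤ f.nu →
      ν ^ 3 ≤ 24 * hh (nrm (volM V F)) (Matrix.diagonal j) (co b F) (co b N) →
      ElF V F N b j f := by
  intro f hf ν h5 hν h1 h24 ha hb
  obtain ⟨c, hc⟩ := elsOK_mem hok f hf
  have hν0 : 0 < ν := by
    by_contra hcon
    push Not at hcon
    have := mul_nonpos_of_nonneg_of_nonpos (Nat.cast_nonneg (α := ℝ) (finrank ℝ V)) hcon
    linarith
  exact el_of_ok hc (oneP_nrm hW hF hmin hd.smooth hd.unit) b hd.t0 hd.lsq hm0 hν0 hν h1 h24 ha hb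

end

end Vale.Agent.P224.R2.H579
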