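import Vale.Agent.P224.R2.H579.LwBound

/-!
The mean normal identity without the trace term.
-/

namespace Vale.Agent.P224.R2.H579

open MeasureTheory Set Filter Function Real Finset Matrix Vale.Agent.P224.R2.H728

set_option linter.unusedSectionVars false

section

variable {ι Ω : Type*} [Fintype ι] [DecidableEq ι] [MeasurableSpace Ω] {μ : Measure Ω}
  {m : ℝ} {x N : ι → Ω → ℝ} {j : ι → ℝ}

/-- the factor on the left -/
noncomputable def L8 (m : ℝ) (j : ι → ℝ) (a : ι) : ℝ :=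
  -1 - 2 * j a ^ 2 / (m + 1)
    + (∑ b, j b ^ 2 * (m + 2 + j a ^ 2 + j a * j b) / ((m + 2) / 2 + j b ^ 2)) / (m + 1)

/-- the integrand on the right, as a function of two vectors -/
noncomputable def G8 (m : ℝ) (j : ι → ℝ) (u n : ι → ℝ) (a : ι) : ℝ :=
  -(n a - j a * u a) * (∑ b, (n b - j b * u b) ^ 2)
    + u a * (∑ b, ((m + 2) / 2 + j a ^ 2) * (j b + j a / 2) / ((m + 2) / 2 + j b ^ 2)
        * (n b - j b * u b) ^ 2)
    - (n a - j a * u a) * (∑ b, j b * (3 * ((m + 2) / 2) + j a ^ 2 + j a * j b + j b ^ 2)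
        / ((m + 2) / 2 + j b ^ 2) * ((n b - j b * u b) * u b))

/-- the integrand in terms of the one of the first identity -/
lemma G8_eq_G7 (hm : 0 < m) (j : ι → ℝ) (u n : ι → ℝ) (a : ι) :
    G8 m j u n a = G7 m j u n a - j a / 2 * (u a * (∑ b, Mw m j a b * (n b - j b * u b) ^ 2)
      - 2 * ((n a - j a * u a) * ∑ b, Pw m j a b * ((n b - j b * u b) * u b))) := by
  have e1 : ∑ b, ((m + 2) / 2 + j a ^ 2) * (j b + j a / 2) / ((m + 2) / 2 + j b ^ 2)
        * (n b - j b * u b) ^ 2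
      = (∑ b, Mw m j a b * (j b + j a) * (n b - j b * u b) ^ 2)
        - j a / 2 * ∑ b, Mw m j a b * (n b - j b * u b) ^ 2 := by
    rw [Finset.mul_sum, ← Finset.sum_sub_distrib]
    refine Finset.sum_congr rfl fun b _ => ?_
    unfold Mw
    ring
  have e2 : ∑ b, j b * (3 * ((m + 2) / 2) + j a ^ 2 + j a * j b + j b ^ 2)
        / ((m + 2) / 2 + j b ^ 2) * ((n b - j b * u b) * u b)
      = j a * (∑ b, (n b - j b * u b) * u b)
        + (∑ b, (1 + 2 * Mw m j a b) * j b * ((n b - j b * u b) * u b))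
        - j a * ∑ b, Pw m j a b * ((n b - j b * u b) * u b) := by
    rw [Finset.mul_sum, Finset.mul_sum, ← Finset.sum_add_distrib, ← Finset.sum_sub_distrib]
    refine Finset.sum_congr rfl fun b _ => ?_
    have h0 : (m + 2) / 2 + j b ^ 2 ≠ 0 := by positivity
    unfold Mw Pw
    field_simp
    ring
  unfold G8 G7
  rw [e1, e2]
  ring

/-- the factor in terms of the one of the first identity -/
lemma L8_eq_Lw (hm : 0 < m) (j : ι → ℝ) (a : ι) :
    L8 m j a = Lw m j a - j a / 2 * (2 / (m + 1) * ((∑ b, Pw m j a b * j b) - j a)) := by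
  have hm1 : m + 1 ≠ 0 := by positivity
  have e1 : ∑ b, j b ^ 2 * (m + 2 + j a ^ 2 + j a * j b) / ((m + 2) / 2 + j b ^ 2)
      = j a * (∑ b, j b) + 2 * (∑ b, Mw m j a b * j b ^ 2)
        - j a * ∑ b, Pw m j a b * j b := by
    rw [Finset.mul_sum, Finset.mul_sum, Finset.mul_sum, ← Finset.sum_add_distrib,
      ← Finset.sum_sub_distrib]
    refine Finset.sum_congr rfl fun b _ => ?_
    have h0 : (m + 2) / 2 + j b ^ 2 ≠ 0 := by positivity
    unfold Mw Pw
    field_simp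
    ring
  unfold L8 Lw
  rw [e1]
  field_simp
  ring

variable (h : T0Data μ m x N)
include h

lemma bm_extra (j : ι → ℝ) (a : ι) : BM fun ω =>
    x a ω * (∑ b, Mw m j a b * (N b ω - j b * x b ω) ^ 2)
      - 2 * ((N a ω - j a * x a ω) * ∑ b, Pw m j a b * ((N b ω - j b * x b ω) * x b ω)) := by
  have bz := h.bzd j
  exact ((h.bx a).mul (BM.sum _ fun b _ => ((bz b).pow 2).const_mul _)).sub
    (((bz a).mul (BM.sum _ fun b _ => ((bz b).mul (h.bx b)).const_mul _)).const_mul 2)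

lemma bm_G8 (hm : 0 < m) (j : ι → ℝ) (a : ι) :
    BM fun ω => G8 m j (fun b => x b ω) (fun b => N b ω) a := by
  simp only [G8_eq_G7 hm]
  exact (bm_G7 h j a).sub ((bm_extra h j a).const_mul _)

/-- **The mean normal identity without the trace term.** -/
theorem mean_G8 (hm : 0 < m) (j : ι → ℝ) (a : ι) :
    L8 m j a * m1 μ N a = ∫ ω, G8 m j (fun b => x b ω) (fun b => N b ω) a ∂μ := by
  have := h.prob
  have bz := h.bzd j
  simp only [G8_eq_G7 hm]
  rw [integral_sub (bm_G7 h j a).int ((bm_extra h j a).const_mul _).int, integral_const_mul,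
    ← mean_G7 h hm, L8_eq_Lw hm]
  have h1 := mean_lam h hm j a
  have e1 : ∫ ω, (x a ω * (∑ b, Mw m j a b * (N b ω - j b * x b ω) ^ 2)
      - 2 * ((N a ω - j a * x a ω)
        * ∑ b, Pw m j a b * ((N b ω - j b * x b ω) * x b ω))) ∂μ
      = ∫ ω, x a ω * sqw (fun b => Mw m j a b) (zd j x N) (zd j x N) ω ∂μ
        - 2 * ∫ ω, zd j x N a ω * sqw (fun b => Pw m j a b) (zd j x N) x ω ∂μ := by
    rw [← integral_const_mul, ← integral_sub ((h.bx a).mul (BM.sqw bz bz _)).int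
      (((bz a).mul (BM.sqw bz h.bx _)).const_mul 2).int]
    refine integral_congr_ae (Eventually.of_forall fun ω => ?_)
    simp only [sqw, zd, sq]
  rw [e1, ← h1]
  ring

/-- the identity contracted with a vector -/
theorem mean_G8_pair (hm : 0 < m) (j v : ι → ℝ) :
    ∑ a, v a * (L8 m j a * m1 μ N a)
      = ∫ ω, ∑ a, v a * G8 m j (fun b => x b ω) (fun b => N b ω) a ∂μ := by
  have := h.prob
  rw [integral_finsetSum _ fun a _ => ((bm_G8 h hm j a).const_mul (v a)).int]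
  refine Finset.sum_congr rfl fun a _ => ?_
  rw [mean_G8 h hm, integral_const_mul]

/-- the law for one vector: the mean normal has components `e a = ν * v a` with `v` a unit vector,
and the contracted integrand is at most `Φ` -/
theorem law8_dir (hm : 0 < m) (j v : ι → ℝ) {ν L : ℝ} (hv : ∑ a, v a ^ 2 = 1)
    (he : ∀ a, m1 μ N a = ν * v a) (hν : 0 ≤ ν) (hL : ∀ a, L ≤ L8 m j a) {Φ : Ω → ℝ}
    (hΦ : BM Φ)
    (hP : ∀ ω, ∑ a, v a * G8 m j (fun b => x b ω) (fun b => N b ω) a ≤ Φ ω) :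
    L * ν ≤ ∫ ω, Φ ω ∂μ := by
  have := h.prob
  have h1 := mean_G8_pair h hm j v
  have h2 : ∫ ω, ∑ a, v a * G8 m j (fun b => x b ω) (fun b => N b ω) a ∂μ ≤ ∫ ω, Φ ω ∂μ :=
    integral_mono (BM.sum _ fun a _ => (bm_G8 h hm j a).const_mul (v a)).int hΦ.int hP
  rw [← h1] at h2
  refine le_trans ?_ h2
  have e1 : L * ν = ∑ a, v a ^ 2 * (L * ν) := by
    rw [← Finset.sum_mul, hv, one_mul]
  rw [e1]
  refine Finset.sum_le_sum fun a _ => ?_
  rw [he]
  have h3 := mul_le_mul_of_nonneg_right (hL a) (mul_nonneg (sq_nonneg (v a)) hν)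
  linarith

/-- the direction of the mean normal -/
lemma exists_dir (ν : ℝ) (hν : 0 < ν) (hn : √(∑ a, m1 μ N a ^ 2) = ν) :
    ∃ v : ι → ℝ, ∑ a, v a ^ 2 = 1 ∧ ∀ a, m1 μ N a = ν * v a := by
  refine ⟨fun a => m1 μ N a / ν, ?_, fun a => by field_simp⟩
  have h1 : ∑ a, m1 μ N a ^ 2 = ν ^ 2 := by
    rw [← hn, Real.sq_sqrt (Finset.sum_nonneg fun a _ => sq_nonneg _)]
  simp only [div_pow]
  rw [← Finset.sum_div, h1, div_self (by positivity)]

/-- **The factor from below.** -/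
theorem L8_ge (hm : 0 < m) (hL : LSq μ (Matrix.diagonal j) x N) {δ : ℝ} (hδ : 0 ≤ δ)
    (hδ1 : δ < 1) (hf : fro (De μ x N) ≤ δ ^ 2) {τ : ℝ}
    (hτ : |∑ b, j b * (j b ^ 2 / ((m + 2) / 2 + j b ^ 2))| ≤ (m + 1) * τ) (a : ι) :
    1 - 2 * m / ((m + 1) * (m + 4)) - 4 * j a ^ 2 / ((m + 1) * (m + 4))
      - 2 * Ew δ (hh μ (Matrix.diagonal j) x N) * (m + 2 + j a ^ 2) / (m + 1) - |j a| * τ
      ≤ L8 m j a := by
  have h1 := sum_f_ge h hm hL hδ hδ1 hf
  set E := Ew δ (hh μ (Matrix.diagonal j) x N)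
  have hm1 : m + 1 ≠ 0 := by positivity
  have e1 : ∑ b, j b ^ 2 * (m + 2 + j a ^ 2 + j a * j b) / ((m + 2) / 2 + j b ^ 2)
      = (m + 2 + j a ^ 2) * (∑ b, j b ^ 2 / ((m + 2) / 2 + j b ^ 2))
        + j a * ∑ b, j b * (j b ^ 2 / ((m + 2) / 2 + j b ^ 2)) := by
    rw [Finset.mul_sum, Finset.mul_sum, ← Finset.sum_add_distrib]
    exact Finset.sum_congr rfl fun b _ => by ring
  unfold L8
  rw [e1]
  set S := ∑ b, j b ^ 2 / ((m + 2) / 2 + j b ^ 2)
  set R := ∑ b, j b * (j b ^ 2 / ((m + 2) / 2 + j b ^ 2))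
  have h2 := mul_le_mul_of_nonneg_left h1 (by positivity : 0 ≤ (m + 2 + j a ^ 2) / (m + 1))
  have h3 : -(|j a| * τ) ≤ j a * R / (m + 1) := by
    have h4 : |j a * R| ≤ |j a| * ((m + 1) * τ) := by
      rw [abs_mul]
      exact mul_le_mul_of_nonneg_left hτ (abs_nonneg _)
    have h5 := (abs_le.1 h4).1
    rw [le_div_iff₀ (by positivity)]
    linarith
  have e2 : 1 - 2 * m / ((m + 1) * (m + 4)) - 4 * j a ^ 2 / ((m + 1) * (m + 4))
      - 2 * E * (m + 2 + j a ^ 2) / (m + 1)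
      = -1 - 2 * j a ^ 2 / (m + 1)
        + (m + 2 + j a ^ 2) / (m + 1) * (2 * (m + 2) / (m + 4) - 2 * E) := by
    field_simp
    ring
  have e3 : ((m + 2 + j a ^ 2) * S + j a * R) / (m + 1)
      = (m + 2 + j a ^ 2) / (m + 1) * S + j a * R / (m + 1) := by ring
  rw [e2, e3]
  linarith

end

end Vale.Agent.P224.R2.H579
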