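import Vale.Agent.P224.R2.H579.ELaw

/-!
The mean normal law with all the constants as explicit functions.
-/

namespace Vale.Agent.P224.R2.H579

open MeasureTheory Set Filter Function Real Finset Matrix Vale.Agent.P224.R2.H728

set_option linter.unusedSectionVars false

/-- the square of the bound of the least squares matrix -/
noncomputable def rJ (m δ : ℝ) : ℝ := (1 + (m + 1) * δ) / (1 - δ)

/-- the bound of the Frobenius norm of the weights -/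
noncomputable def oJ (m δ η : ℝ) : ℝ := (m + 2) * ((δ + η) / (1 - δ))

/-- the bound of the trace -/
noncomputable def tJ (m δ η : ℝ) : ℝ := δ * √(m + 2 + δ * oJ m δ η) / (m + 1)

/-- the factor; `c` is a correction which may be `0` for small `δ` -/
noncomputable def lJ (m δ η c : ℝ) : ℝ :=
  m / (m + 1) - (m - 4) / ((m + 1) * (m + 4)) - tJ m δ η / 2 - 2 * Ew δ η * (m + 2) / (m + 1)
    - c * rJ m δ

section

variable {ι Ω : Type*} [Fintype ι] [DecidableEq ι] [MeasurableSpace Ω] {μ : Measure Ω}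
  {m : ℝ} {x N : ι → Ω → ℝ} {j : ι → ℝ}

variable (h : T0Data μ m x N)
include h

lemma j_sq_le (hm : 0 ≤ m) (hL : LSq μ (Matrix.diagonal j) x N) {δ : ℝ} (hδ : 0 ≤ δ)
    (hδ1 : δ < 1) (hf : fro (De μ x N) ≤ δ ^ 2) (b : ι) : j b ^ 2 ≤ rJ m δ := by
  have h1 := h.w_le hm hL hδ hδ1 hf b
  have h7 : (0 : ℝ) < 1 - δ := by linarith
  have e : rJ m δ = 1 + (m + 2) * (δ / (1 - δ)) := by
    unfold rJ
    field_simp
    ring
  rw [e]
  linarith

lemma tr_le_tJ (hm : 0 < m) (hL : LSq μ (Matrix.diagonal j) x N) {δ η : ℝ} (hδ : 0 ≤ δ)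
    (hδ1 : δ < 1) (hf : fro (De μ x N) ≤ δ ^ 2) (hη : hh μ (Matrix.diagonal j) x N ≤ η) :
    |∑ b, j b| ≤ (m + 1) * tJ m δ η := by
  have h7 : (0 : ℝ) < 1 - δ := by linarith
  have hη0 : 0 ≤ hh μ (Matrix.diagonal j) x N := h.hh_nonneg _
  have hη1 : 0 ≤ η := hη0.trans hη
  have ho : 0 ≤ oJ m δ η := by unfold oJ; positivity
  have hw : ∑ a, (j a ^ 2 - 1) ^ 2 ≤ oJ m δ η ^ 2 := by
    refine (h.w_fro hm.le hL hδ hδ1 hf).trans ?_
    unfold oJ
    gcongr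
  have hT0 : 0 ≤ tJ m δ η := by unfold tJ; positivity
  refine tr_le h hm hL hδ hf ho hw hT0 (le_of_eq ?_)
  unfold tJ
  have hm1 : m + 1 ≠ 0 := by positivity
  have e : (m + 1) * (δ * √(m + 2 + δ * oJ m δ η) / (m + 1)) = δ * √(m + 2 + δ * oJ m δ η) := by
    field_simp
  rw [e, mul_pow, Real.sq_sqrt (by positivity)]

/-- the factor from below, uniformly in the index, in closed form -/
theorem Lw_ge_lJ (hm : 0 < m) (hL : LSq μ (Matrix.diagonal j) x N) {δ η c : ℝ} (hδ : 0 ≤ δ)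
    (hδ1 : δ < 1) (hf : fro (De μ x N) ≤ δ ^ 2) (hη : hh μ (Matrix.diagonal j) x N ≤ η)
    (hc0 : 0 ≤ c)
    (hc : tJ m δ η / 2 + 4 * Ew δ η / (m + 1) ≤ (m - 4) / ((m + 1) * (m + 4)) + c) (a : ι) :
    lJ m δ η c ≤ Lw m j a := by
  have hm1 : m + 1 ≠ 0 := by positivity
  have hE := Ew_mono hδ hδ1 (h.hh_nonneg _) hη
  have hT := tr_le_tJ h hm hL hδ hδ1 hf hη
  have hq := j_sq_le h hm.le hL hδ hδ1 hf a
  refine le_trans ?_ (Lw_ge h hm hL hδ hδ1 hf a)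
  set E0 := Ew δ (hh μ (Matrix.diagonal j) x N)
  set E := Ew δ η
  set T := tJ m δ η with hTd
  have hE0 : 0 ≤ E0 := Ew_nonneg hδ hδ1 (h.hh_nonneg _)
  have k1 : |j a| ≤ 1 + (j a ^ 2 - 1) / 2 := by
    have := sq_nonneg (|j a| - 1)
    have e := sq_abs (j a)
    nlinarith
  have k2 : -((1 + (j a ^ 2 - 1) / 2) * T) ≤ j a * (∑ b, j b) / (m + 1) := by
    have h1 : |j a * ∑ b, j b| ≤ (1 + (j a ^ 2 - 1) / 2) * ((m + 1) * T) := by
      rw [abs_mul]
      exact mul_le_mul k1 hT (abs_nonneg _) ((abs_nonneg _).trans k1)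
    rw [le_div_iff₀ (by positivity)]
    have := (abs_le.1 h1).1
    linarith
  have k3 : (m + 4 + 2 * (j a ^ 2 - 1)) / (m + 1) * (2 * E0)
      ≤ (m + 4 + 2 * (j a ^ 2 - 1)) / (m + 1) * (2 * E) := by
    refine mul_le_mul_of_nonneg_left (by linarith) ?_
    refine div_nonneg ?_ (by positivity)
    nlinarith [sq_nonneg (j a)]
  have k4 : -(c * rJ m δ)
      ≤ ((m - 4) / ((m + 1) * (m + 4)) - T / 2 - 4 * E / (m + 1)) * (j a ^ 2) := by
    have p1 : -c * (j a ^ 2)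
        ≤ ((m - 4) / ((m + 1) * (m + 4)) - T / 2 - 4 * E / (m + 1)) * (j a ^ 2) :=
      mul_le_mul_of_nonneg_right (by linarith) (sq_nonneg _)
    have p2 : c * j a ^ 2 ≤ c * rJ m δ := mul_le_mul_of_nonneg_left hq hc0
    linarith
  have e1 : m / (m + 1) + (m - 4) / ((m + 1) * (m + 4)) * (j a ^ 2 - 1)
      - (1 + (j a ^ 2 - 1) / 2) * T
      - (m + 4 + 2 * (j a ^ 2 - 1)) / (m + 1) * (2 * E)
      = m / (m + 1) - (m - 4) / ((m + 1) * (m + 4)) - T / 2 - 2 * E * (m + 2) / (m + 1)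
        + ((m - 4) / ((m + 1) * (m + 4)) - T / 2 - 4 * E / (m + 1)) * (j a ^ 2) := by
    field_simp
    ring
  unfold lJ
  rw [← hTd]
  linarith

/-- **The mean normal law, joint form**: `δ` is any bound of the deviation, `η` any bound of the
square defect. -/
theorem e_law_joint (hm : 0 < m) (hL : LSq μ (Matrix.diagonal j) x N) {δ η c : ℝ} (hδ : 0 ≤ δ)
    (hδ1 : δ < 1) (hf : fro (De μ x N) ≤ δ ^ 2) (hη : hh μ (Matrix.diagonal j) x N ≤ η)
    (hρm : rJ m δ + 2 * √(rJ m δ) ≤ (m + 2) / 2) (hc0 : 0 ≤ c)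
    (hc : tJ m δ η / 2 + 4 * Ew δ η / (m + 1) ≤ (m - 4) / ((m + 1) * (m + 4)) + c)
    (hpos : 0 ≤ lJ m δ η c) :
    lJ m δ η c * √(∑ a, m1 μ N a ^ 2)
      ≤ (1 + √(rJ m δ)) * hh μ (Matrix.diagonal j) x N := by
  have h7 : (0 : ℝ) < 1 - δ := by linarith
  have hr0 : 0 < rJ m δ := by unfold rJ; positivity
  have hρ : 0 < √(rJ m δ) := Real.sqrt_pos.2 hr0
  refine e_law h hm hρ ?_ ?_ hpos (Lw_ge_lJ h hm hL hδ hδ1 hf hη hc0 hc)
  · rw [Real.sq_sqrt hr0.le]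
    exact hρm
  · intro b
    refine abs_le_of_sq_le_sq ?_ hρ.le
    rw [Real.sq_sqrt hr0.le]
    exact j_sq_le h hm.le hL hδ hδ1 hf b

end

end Vale.Agent.P224.R2.H579
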