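import Vale.Agent.P224.R2.H579.MeanEight
import Vale.Agent.P224.R2.H662.JJ

/-!
The factor of the mean normal law from the diagonal bound alone.
-/

namespace Vale.Agent.P224.R2.H579

open MeasureTheory Set Filter Function Real Vale.Agent.P224.R2.H728
open Vale.Agent.P224.R2.H662

set_option linter.unusedSectionVars false

section

variable {ι Ω : Type*} [Fintype ι] [DecidableEq ι] [MeasurableSpace Ω] {μ : Measure Ω}
  {m : ℝ} {x N : ι → Ω → ℝ} {j : ι → ℝ}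

/-- the eigenvalue from its own diagonal entry -/
lemma j_sq_own (h : T0Data μ m x N) (hm : 0 ≤ m) (hL : LSq μ (Matrix.diagonal j) x N) {ν : ℝ}
    (hν1 : ν < 1) (hν : ∀ a, m2 μ N N a a ≤ ν) (a : ι) :
    j a ^ 2 * (1 - ν) ≤ (m + 1) * m2 μ N N a a := by
  have h1 := h.GP a a
  rw [if_pos rfl] at h1
  have hG : 0 < m2 μ x x a a := by
    have h2 : 0 < (m + 1) * m2 μ x x a a := by linarith [hν a]
    exact pos_of_mul_pos_right h2 (by linarith)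
  have h3 := H662.j_sq_le h hm hL a le_rfl hG
  have h4 := mul_le_mul_of_nonneg_left (hν a) (sq_nonneg (j a))
  linarith

/-- the sum of the squares from below -/
lemma sum_sq_ge (h : T0Data μ m x N) (hm : 0 < m) (hL : LSq μ (Matrix.diagonal j) x N) {ν : ℝ}
    (hν1 : ν < 1) (hν : ∀ a, m2 μ N N a a ≤ ν) :
    (m + 1) * (1 - hh μ (Matrix.diagonal j) x N) + (1 - ν) / (m + 1) * ∑ a, j a ^ 4
      ≤ ∑ a, j a ^ 2 := by
  have hm1 : 0 < m + 1 := by linarith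
  rw [← E_q h hL, Finset.mul_sum, Finset.mul_sum, ← Finset.sum_add_distrib]
  refine Finset.sum_le_sum fun a _ => ?_
  have h1 := h.GP a a
  rw [if_pos rfl] at h1
  have h2 := j_sq_own h hm.le hL hν1 hν a
  have h3 : (m + 1) * (j a ^ 2 * m2 μ x x a a) = j a ^ 2 * (1 - m2 μ N N a a) := by
    linear_combination j a ^ 2 * h1
  rw [h3]
  have h4 := mul_le_mul_of_nonneg_left h2 (sq_nonneg (j a))
  have h5 : (1 - ν) / (m + 1) * j a ^ 4 = j a ^ 2 * (j a ^ 2 * (1 - ν)) / (m + 1) := by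
    field_simp
  have h6 : j a ^ 2 * (j a ^ 2 * (1 - ν)) / (m + 1) ≤ j a ^ 2 * m2 μ N N a a := by
    rw [div_le_iff₀ hm1]
    linarith
  rw [h5]
  linarith

/-- the sum of the fourth powers -/
lemma sum_four_le (h : T0Data μ m x N) (hm : 0 < m) (hL : LSq μ (Matrix.diagonal j) x N) {ν : ℝ}
    (hν1 : ν < 1) (hν : ∀ a, m2 μ N N a a ≤ ν) :
    (1 - ν) * ∑ a, j a ^ 4 ≤ (m + 1) * ν * ∑ a, j a ^ 2 := by
  rw [Finset.mul_sum, Finset.mul_sum]
  refine Finset.sum_le_sum fun a _ => ?_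
  have h2 := j_sq_own h hm.le hL hν1 hν a
  have h3 := mul_le_mul_of_nonneg_left (hν a) (by linarith : 0 ≤ m + 1)
  have h4 := mul_le_mul_of_nonneg_left (h2.trans h3) (sq_nonneg (j a))
  calc (1 - ν) * j a ^ 4 = j a ^ 2 * (j a ^ 2 * (1 - ν)) := by ring
    _ ≤ j a ^ 2 * ((m + 1) * ν) := h4
    _ = _ := by ring

/-- the scalar tangent -/
lemma f_tan {H y ν : ℝ} (hH : 0 < H) (hy : 0 ≤ y) (hν0 : 0 ≤ ν) :
    (1 + 3 * ν) * (1 - ν) / (1 + ν) ^ 2 * (y / H) - (1 - ν) ^ 2 / (1 + ν) ^ 2 * (y / H) ^ 2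
      ≤ y / (H + y) := by
  have h1 : 0 < 1 + ν := by linarith
  have h2 : 0 < H + y := by linarith
  have e : y / (H + y) - ((1 + 3 * ν) * (1 - ν) / (1 + ν) ^ 2 * (y / H)
      - (1 - ν) ^ 2 / (1 + ν) ^ 2 * (y / H) ^ 2)
      = y * ((1 - ν) * y - 2 * ν * H) ^ 2 / ((H + y) * (1 + ν) ^ 2 * H ^ 2) := by
    field_simp
    ring
  have h3 : 0 ≤ y * ((1 - ν) * y - 2 * ν * H) ^ 2 / ((H + y) * (1 + ν) ^ 2 * H ^ 2) := by
    positivity
  linarith

/-- the sum of the weights from below -/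
theorem sum_f_ge' (h : T0Data μ m x N) (hm : 0 < m) (hL : LSq μ (Matrix.diagonal j) x N) {ν : ℝ}
    (hν0 : 0 ≤ ν) (hν1 : ν ≤ 1 / 3) (hν : ∀ a, m2 μ N N a a ≤ ν) :
    2 / (1 + ν) - 2 * (hh μ (Matrix.diagonal j) x N + 1 / (m + 2))
      ≤ ∑ b, j b ^ 2 / ((m + 2) / 2 + j b ^ 2) := by
  have := h.prob
  have hν1' : ν < 1 := by linarith
  have h1ν : 0 < 1 - ν := by linarith
  have h2ν : 0 < 1 + ν := by linarith
  have hH : 0 < (m + 2) / 2 := by linarith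
  have hη0 : 0 ≤ hh μ (Matrix.diagonal j) x N := h.hh_nonneg _
  have hη1 : hh μ (Matrix.diagonal j) x N ≤ 1 := by
    have h1 := E_q h hL
    have h2 : 0 ≤ ∑ a, j a ^ 2 * m2 μ x x a a :=
      Finset.sum_nonneg fun a _ => mul_nonneg (sq_nonneg _) (integral_nonneg fun _ =>
        mul_self_nonneg _)
    linarith
  set η := hh μ (Matrix.diagonal j) x N
  have k1 := sum_sq_ge h hm hL hν1' hν
  have k2 := sum_four_le h hm hL hν1' hν
  have k3 := j_sum_sq h hL hν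
  set P1 := ∑ a, j a ^ 2
  set P2 := ∑ a, j a ^ 4
  have hP2 : 0 ≤ P2 := Finset.sum_nonneg fun a _ => by positivity
  have hS : (1 + 3 * ν) * (1 - ν) / (1 + ν) ^ 2 * (P1 / ((m + 2) / 2))
      - (1 - ν) ^ 2 / (1 + ν) ^ 2 * (P2 / ((m + 2) / 2) ^ 2)
      ≤ ∑ b, j b ^ 2 / ((m + 2) / 2 + j b ^ 2) := by
    have e : (1 + 3 * ν) * (1 - ν) / (1 + ν) ^ 2 * (P1 / ((m + 2) / 2))
      - (1 - ν) ^ 2 / (1 + ν) ^ 2 * (P2 / ((m + 2) / 2) ^ 2)
      = ∑ b, ((1 + 3 * ν) * (1 - ν) / (1 + ν) ^ 2 * (j b ^ 2 / ((m + 2) / 2))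
        - (1 - ν) ^ 2 / (1 + ν) ^ 2 * (j b ^ 2 / ((m + 2) / 2)) ^ 2) := by
      rw [Finset.sum_sub_distrib, ← Finset.mul_sum, ← Finset.mul_sum, ← Finset.sum_div]
      have e2 : ∑ i, (j i ^ 2 / ((m + 2) / 2)) ^ 2 = P2 / ((m + 2) / 2) ^ 2 := by
        rw [Finset.sum_div]
        refine Finset.sum_congr rfl fun a _ => ?_
        rw [div_pow]
        ring
      rw [e2]
    rw [e]
    exact Finset.sum_le_sum fun b _ => f_tan hH (sq_nonneg _) hν0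
  refine le_trans ?_ hS
  -- the two sums
  have hP2' : P2 ≤ (m + 1) ^ 2 * ν / (1 - ν) ^ 2 := by
    rw [le_div_iff₀ (by positivity)]
    have q1 : P1 * (1 - ν) ≤ m + 1 := k3.trans (by nlinarith)
    have q2 := mul_le_mul_of_nonneg_left q1 (by positivity : 0 ≤ (m + 1) * ν)
    nlinarith [mul_le_mul_of_nonneg_left k2 h1ν.le]
  have hα : 0 ≤ (1 + 3 * ν) * (1 - ν) / (1 + ν) ^ 2 := by positivity
  have k4 : (1 + 3 * ν) * (1 - ν) / (1 + ν) ^ 2
      * (((m + 1) * (1 - η) + (1 - ν) / (m + 1) * P2) / ((m + 2) / 2))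
      ≤ (1 + 3 * ν) * (1 - ν) / (1 + ν) ^ 2 * (P1 / ((m + 2) / 2)) :=
    mul_le_mul_of_nonneg_left (div_le_div_of_nonneg_right k1 hH.le) hα
  -- the coefficient of the fourth powers
  have k5 : (1 + 3 * ν) * (1 - ν) / (1 + ν) ^ 2 * ((1 - ν) / (m + 1) * P2 / ((m + 2) / 2))
      - (1 - ν) ^ 2 / (1 + ν) ^ 2 * (P2 / ((m + 2) / 2) ^ 2)
      ≥ -((2 - 6 * ν) * ν / (1 + ν) ^ 2) := by
    have c1 : (1 + 3 * ν) * (1 - ν) / (1 + ν) ^ 2 * ((1 - ν) / (m + 2) * P2 / ((m + 2) / 2))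
        ≤ (1 + 3 * ν) * (1 - ν) / (1 + ν) ^ 2 * ((1 - ν) / (m + 1) * P2 / ((m + 2) / 2)) := by
      refine mul_le_mul_of_nonneg_left ?_ hα
      refine div_le_div_of_nonneg_right ?_ hH.le
      refine mul_le_mul_of_nonneg_right ?_ hP2
      exact div_le_div_of_nonneg_left h1ν.le (by linarith) (by linarith)
    have c2 : (1 + 3 * ν) * (1 - ν) / (1 + ν) ^ 2 * ((1 - ν) / (m + 2) * P2 / ((m + 2) / 2))
      - (1 - ν) ^ 2 / (1 + ν) ^ 2 * (P2 / ((m + 2) / 2) ^ 2)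
      = -((2 - 6 * ν) * (1 - ν) ^ 2 / (1 + ν) ^ 2 * (P2 / (m + 2) ^ 2)) := by
      field_simp
      ring
    have c3 : P2 / (m + 2) ^ 2 ≤ ν / (1 - ν) ^ 2 := by
      rw [div_le_iff₀ (by positivity)]
      refine hP2'.trans ?_
      rw [mul_comm, mul_div_assoc, mul_comm]
      rw [mul_comm (ν / (1 - ν) ^ 2)]
      have : (m + 1) ^ 2 ≤ (m + 2) ^ 2 := pow_le_pow_left₀ (by linarith) (by linarith) 2
      have hq : 0 ≤ ν / (1 - ν) ^ 2 := by positivity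
      have e9 : ν * ((m + 1) ^ 2 / (1 - ν) ^ 2) = (m + 1) ^ 2 * (ν / (1 - ν) ^ 2) := by ring
      nlinarith [mul_le_mul_of_nonneg_right this hq]
    have c4 : (2 - 6 * ν) * (1 - ν) ^ 2 / (1 + ν) ^ 2 * (P2 / (m + 2) ^ 2)
        ≤ (2 - 6 * ν) * (1 - ν) ^ 2 / (1 + ν) ^ 2 * (ν / (1 - ν) ^ 2) := by
      refine mul_le_mul_of_nonneg_left c3 ?_
      have : 0 ≤ 2 - 6 * ν := by linarith
      positivity
    have c5 : (2 - 6 * ν) * (1 - ν) ^ 2 / (1 + ν) ^ 2 * (ν / (1 - ν) ^ 2)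
        = (2 - 6 * ν) * ν / (1 + ν) ^ 2 := by
      field_simp
    linarith
  have k6 : (1 + 3 * ν) * (1 - ν) / (1 + ν) ^ 2
      * (((m + 1) * (1 - η) + (1 - ν) / (m + 1) * P2) / ((m + 2) / 2))
      = (1 + 3 * ν) * (1 - ν) / (1 + ν) ^ 2 * ((m + 1) * (1 - η) / ((m + 2) / 2))
        + (1 + 3 * ν) * (1 - ν) / (1 + ν) ^ 2 * ((1 - ν) / (m + 1) * P2 / ((m + 2) / 2)) := by
    ring
  have k7 : 2 / (1 + ν) - 2 * (η + 1 / (m + 2))
      ≤ (1 + 3 * ν) * (1 - ν) / (1 + ν) ^ 2 * ((m + 1) * (1 - η) / ((m + 2) / 2))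
        - (2 - 6 * ν) * ν / (1 + ν) ^ 2 := by
    have d1 : (m + 1) * (1 - η) / ((m + 2) / 2) = 2 - 2 * (η + (1 - η) / (m + 2)) := by
      field_simp
      ring
    have d2 : (1 - η) / (m + 2) ≤ 1 / (m + 2) := by
      refine div_le_div_of_nonneg_right ?_ (by linarith)
      linarith
    have d3 : (1 + 3 * ν) * (1 - ν) / (1 + ν) ^ 2 ≤ 1 := by
      rw [div_le_one (by positivity)]
      nlinarith [sq_nonneg ν]
    have d4 : 0 ≤ (1 - η) / (m + 2) := div_nonneg (by linarith) (by linarith)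
    have d5 : 2 / (1 + ν) = (1 + 3 * ν) * (1 - ν) / (1 + ν) ^ 2 * 2
        - (2 - 6 * ν) * ν / (1 + ν) ^ 2 := by
      field_simp
      ring
    rw [d1, d5]
    have d6 : (1 + 3 * ν) * (1 - ν) / (1 + ν) ^ 2 * (η + (1 - η) / (m + 2))
        ≤ 1 * (η + (1 - η) / (m + 2)) := mul_le_mul_of_nonneg_right d3 (by linarith)
    linarith
  linarith

/-- the cubic sum -/
lemma cub_le (h : T0Data μ m x N) (hm : 0 < m) (hL : LSq μ (Matrix.diagonal j) x N) {ν : ℝ}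
    (hν0 : 0 ≤ ν) (hν1 : ν ≤ 1 / 3) (hν : ∀ a, m2 μ N N a a ≤ ν) (a : ι) :
    |j a * ∑ b, j b * (j b ^ 2 / ((m + 2) / 2 + j b ^ 2))|
      ≤ 2 * ν / (1 + ν) * ∑ b, j b ^ 2 := by
  have hν1' : ν < 1 := by linarith
  have h1ν : 0 < 1 - ν := by linarith
  set r := √(ν / (1 - ν) * (m + 1)) with hr
  have hr2 : r ^ 2 = ν / (1 - ν) * (m + 1) := Real.sq_sqrt (by positivity)
  have hr0 : 0 ≤ r := Real.sqrt_nonneg _
  have hj : ∀ c, |j c| ≤ r := by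
    intro c
    refine abs_le_of_sq_le_sq ?_ hr0
    rw [hr2]
    have h2 := j_sq_own h hm.le hL hν1' hν c
    have h3 := mul_le_mul_of_nonneg_left (hν c) (by linarith : 0 ≤ m + 1)
    rw [div_mul_eq_mul_div, le_div_iff₀ h1ν]
    linarith
  rw [Finset.mul_sum, Finset.mul_sum]
  refine (Finset.abs_sum_le_sum_abs _ _).trans (Finset.sum_le_sum fun b _ => ?_)
  have hθ : 0 < (m + 2) / 2 + j b ^ 2 := by positivity
  rw [abs_mul, abs_mul, abs_div, abs_of_nonneg (sq_nonneg (j b)), abs_of_pos hθ]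
  have e : |j a| * (|j b| * (j b ^ 2 / ((m + 2) / 2 + j b ^ 2)))
      = |j a| * |j b| / ((m + 2) / 2 + j b ^ 2) * j b ^ 2 := by ring
  rw [e]
  refine mul_le_mul_of_nonneg_right ?_ (sq_nonneg _)
  rw [div_le_div_iff₀ hθ (by linarith)]
  have ha := hj a
  have hb := hj b
  have hb0 := abs_nonneg (j b)
  have k1 : |j a| * |j b| ≤ r * |j b| := mul_le_mul_of_nonneg_right ha hb0
  have k2 : (1 - ν) * r ^ 2 ≤ 2 * ν * ((m + 2) / 2) := by
    rw [hr2]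
    have e2 : (1 - ν) * (ν / (1 - ν) * (m + 1)) = ν * (m + 1) := by
      field_simp
    rw [e2]
    nlinarith
  have k3 : 0 ≤ (r - |j b|) * ((1 - ν) * r - 2 * ν * |j b|) := by
    refine mul_nonneg (by linarith) ?_
    have : 2 * ν * |j b| ≤ (1 - ν) * r := by
      have q1 : 2 * ν * |j b| ≤ (1 - ν) * |j b| := mul_le_mul_of_nonneg_right (by linarith) hb0
      have q2 : (1 - ν) * |j b| ≤ (1 - ν) * r := mul_le_mul_of_nonneg_left hb h1ν.le
      linarith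
    linarith
  have k4 := sq_abs (j b)
  have k5 := mul_le_mul_of_nonneg_right k1 (by linarith : 0 ≤ 1 + ν)
  rw [← k4]
  nlinarith

/-- **The factor from the diagonal bound alone.** -/
theorem L8_nu (h : T0Data μ m x N) (hL : LSq μ (Matrix.diagonal j) x N) {ν m0 H : ℝ}
    (hm0 : 0 < m0) (hm : m0 ≤ m) (hν0 : 0 ≤ ν) (hν1 : ν ≤ 1 / 3) (hν : ∀ a, m2 μ N N a a ≤ ν)
    (hH : hh μ (Matrix.diagonal j) x N ≤ H) (a : ι) :
    (1 - 4 * ν - ν ^ 2) / (1 - ν ^ 2) - 2 * H / (1 - ν)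
      - 2 / (m0 + 1) * (2 * ν / (1 - ν ^ 2) + H) ≤ L8 m j a := by
  have := h.prob
  have hmp : 0 < m := by linarith
  have hν1' : ν < 1 := by linarith
  have h1ν : 0 < 1 - ν := by linarith
  have h2ν : 0 < 1 + ν := by linarith
  have hη0 : 0 ≤ hh μ (Matrix.diagonal j) x N := h.hh_nonneg _
  have h1 := sum_f_ge' h hmp hL hν0 hν1 hν
  have h2 := (abs_le.1 (cub_le h hmp hL hν0 hν1 hν a)).1
  have h3 := j_sum_sq h hL hν
  have h4 := j_sq_own h hmp.le hL hν1' hν a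
  have h5 := mul_le_mul_of_nonneg_left (hν a) (by linarith : 0 ≤ m + 1)
  set η := hh μ (Matrix.diagonal j) x N
  set S := ∑ b, j b ^ 2 / ((m + 2) / 2 + j b ^ 2) with hS
  set R := ∑ b, j b * (j b ^ 2 / ((m + 2) / 2 + j b ^ 2)) with hR
  set P1 := ∑ a, j a ^ 2
  have hm1 : 0 < m + 1 := by linarith
  have e1 : ∑ b, j b ^ 2 * (m + 2 + j a ^ 2 + j a * j b) / ((m + 2) / 2 + j b ^ 2)
      = (m + 2 + j a ^ 2) * S + j a * R := by
    rw [hS, hR, Finset.mul_sum, Finset.mul_sum, ← Finset.sum_add_distrib]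
    exact Finset.sum_congr rfl fun b _ => by ring
  unfold L8
  rw [e1]
  set k := j a ^ 2 / (m + 1) with hk
  have hk0 : 0 ≤ k := by positivity
  have hk1 : k ≤ ν / (1 - ν) := by
    rw [hk, div_le_div_iff₀ hm1 h1ν]
    linarith
  have e2 : -1 - 2 * j a ^ 2 / (m + 1) + ((m + 2 + j a ^ 2) * S + j a * R) / (m + 1)
      = -1 - 2 * k + (1 + 1 / (m + 1) + k) * S + j a * R / (m + 1) := by
    rw [hk]
    field_simp
    ring
  rw [e2]
  have hP1 : P1 ≤ (m + 1) / (1 - ν) := by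
    rw [le_div_iff₀ h1ν]
    refine h3.trans ?_
    nlinarith
  have r1 : -(2 * ν / (1 + ν) / (1 - ν)) ≤ j a * R / (m + 1) := by
    rw [le_div_iff₀ hm1]
    have := mul_le_mul_of_nonneg_left hP1 (by positivity : 0 ≤ 2 * ν / (1 + ν))
    have e3 : 2 * ν / (1 + ν) * ((m + 1) / (1 - ν)) = 2 * ν / (1 + ν) / (1 - ν) * (m + 1) := by
      ring
    rw [e3] at this
    linarith
  set S0 := 2 / (1 + ν) - 2 * (η + 1 / (m + 2)) with hS0
  have hS02 : S0 ≤ 2 := by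
    have q1 : 2 / (1 + ν) ≤ 2 := by
      rw [div_le_iff₀ h2ν]
      linarith
    have q2 : 0 ≤ 1 / (m + 2) := by positivity
    rw [hS0]
    linarith
  have r2 := mul_le_mul_of_nonneg_left h1 (by positivity : 0 ≤ 1 + 1 / (m + 1) + k)
  have r3 : -(ν / (1 - ν) * (2 - S0)) ≤ -(k * (2 - S0)) := by
    have := mul_le_mul_of_nonneg_right hk1 (by linarith : 0 ≤ 2 - S0)
    linarith
  -- the closed form
  have r4 : (1 - 4 * ν - ν ^ 2) / (1 - ν ^ 2) - 2 * H / (1 - ν)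
      - 2 / (m0 + 1) * (2 * ν / (1 - ν ^ 2) + H)
      ≤ -1 + (1 + 1 / (m + 1)) * S0 - ν / (1 - ν) * (2 - S0) - 2 * ν / (1 + ν) / (1 - ν) := by
    have f1 : -1 + (1 + 1 / (m + 1)) * S0 - ν / (1 - ν) * (2 - S0) - 2 * ν / (1 + ν) / (1 - ν)
        = (1 - 4 * ν - ν ^ 2) / (1 - ν ^ 2) - 2 * η / (1 - ν)
          - 2 / (m + 1) * (2 * ν / (1 - ν ^ 2) + η) + 2 * ν / ((1 - ν) * (m + 1) * (m + 2)) := by
      rw [hS0]
      have g1 : (1 : ℝ) - ν ^ 2 = (1 - ν) * (1 + ν) := by ring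
      rw [g1]
      field_simp
      ring
    rw [f1]
    have f2 : 0 ≤ 2 * ν / ((1 - ν) * (m + 1) * (m + 2)) := by positivity
    have f3 : 2 * η / (1 - ν) ≤ 2 * H / (1 - ν) := by gcongr
    have f4 : 0 < 1 - ν ^ 2 := by nlinarith
    have f5 : 2 / (m + 1) * (2 * ν / (1 - ν ^ 2) + η)
        ≤ 2 / (m0 + 1) * (2 * ν / (1 - ν ^ 2) + H) := by
      refine mul_le_mul ?_ ?_ (by positivity) (by positivity)
      · exact div_le_div_of_nonneg_left (by norm_num) (by linarith) (by linarith)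
      · linarith
    linarith
  refine r4.trans ?_
  have r5 : -1 + (1 + 1 / (m + 1)) * S0 - ν / (1 - ν) * (2 - S0) - 2 * ν / (1 + ν) / (1 - ν)
      ≤ -1 + (1 + 1 / (m + 1)) * S0 - k * (2 - S0) - 2 * ν / (1 + ν) / (1 - ν) := by linarith
  refine r5.trans ?_
  have r6 : -1 + (1 + 1 / (m + 1)) * S0 - k * (2 - S0) - 2 * ν / (1 + ν) / (1 - ν)
      = -1 - 2 * k + (1 + 1 / (m + 1) + k) * S0 - 2 * ν / (1 + ν) / (1 - ν) := by ring
  rw [r6]
  linarith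

end

end Vale.Agent.P224.R2.H579
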