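import Vale.Agent.P224.R2.H204.CdR
import Vale.Agent.P224.R2.H579.L8v
import Vale.Agent.P224.R2.H460.Cl2

/-!
The bounds of the mean normal with their certificates.
-/

namespace Vale.Agent.P224.R2.H579

open MeasureTheory Set Filter Function Real Vale.Agent.P224.R2.H728
open Vale.Agent.P224.R2.H662 Vale.Agent.P224.R2.H679
open Vale.Agent.P224.R2.H470 (OneP)
open Vale.Agent.P224.R2.H204 (okD cd_of_ok)
open Vale.Agent.P224.R2.H460 (ElR)

set_option linter.unusedSectionVars false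

/-- the factor of the mean normal law, rational form -/
def lcQ (m0 nu hb : ℚ) : ℚ :=
  (1 - 4 * nu - nu ^ 2) / (1 - nu ^ 2) - 2 * hb / (1 - nu)
    - 2 / (m0 + 1) * (2 * nu / (1 - nu ^ 2) + hb)

/-- the check of a bound against its certificate, `ok` is the check of the certificate -/
def elOK (m0 : ℚ) (ok : CqR → Bool) (f : ElR) (c : CqR) : Bool :=
  ok c && decide (0 < m0) && decide (f.nu ≤ c.nu) && decide (f.nu ≤ 1 / 3)
    && (decide (24 ≤ c.cf) || (decide (0 ≤ c.cf) && decide (f.nu ^ 3 ≤ c.cf * f.ha)))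
    && decide (0 < f.L) && decide (0 ≤ f.R) && decide (0 < lcQ m0 f.nu f.hb)
    && decide (f.L * c.kn ≤ f.K * lcQ m0 f.nu f.hb)

/-- the check of a list of bounds -/
def elsOK (m0 : ℚ) (ok : CqR → Bool) : List ElR → List CqR → Bool
  | [], _ => true
  | _ :: _, [] => false
  | f :: fs, c :: cs => elOK m0 ok f c && elsOK m0 ok fs cs

lemma elsOK_mem {m0 : ℚ} {ok : CqR → Bool} :
    ∀ {fs : List ElR} {cs : List CqR}, elsOK m0 ok fs cs = true → ∀ f ∈ fs,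
      ∃ c, elOK m0 ok f c = true
  | [], _, _, f, hf => by simp at hf
  | _ :: _, [], h, _, _ => by simp [elsOK] at h
  | g :: gs, c :: cs, h, f, hf => by
    simp only [elsOK, Bool.and_eq_true] at h
    rcases List.mem_cons.1 hf with e | e
    · exact ⟨c, by rw [e]; exact h.1⟩
    · exact elsOK_mem h.2 f e

lemma elsOK_append {m0 : ℚ} {ok : CqR → Bool} :
    ∀ {fs gs : List ElR} {cs ds : List CqR}, fs.length = cs.length → elsOK m0 ok fs cs = true →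
      elsOK m0 ok gs ds = true → elsOK m0 ok (fs ++ gs) (cs ++ ds) = true
  | [], _, [], _, _, _, h2 => by simpa using h2
  | [], _, _ :: _, _, h, _, _ => by simp at h
  | _ :: _, _, [], _, h, _, _ => by simp at h
  | f :: fs, gs, c :: cs, ds, h, h1, h2 => by
    simp only [elsOK, Bool.and_eq_true] at h1
    simp only [List.cons_append, elsOK, Bool.and_eq_true]
    exact ⟨h1.1, elsOK_append (by simpa using h) h1.2 h2⟩

section

variable {ι Ω : Type*} [Fintype ι] [DecidableEq ι] [MeasurableSpace Ω] {μ : Measure Ω}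
  {m : ℕ} {x N : ι → Ω → ℝ} {j : ι → ℝ}

/-- the bound from a law with the factor `L8` -/
theorem el_of_law {m0 : ℚ} {ok : CqR → Bool} {f : ElR} {c : CqR} (hok : elOK m0 ok f c = true)
    (hT : T0Data μ m x N) (hL : LSq μ (Matrix.diagonal j) x N) (hm0 : (m0 : ℝ) ≤ m)
    {ν : ℝ} (hν0 : 0 < ν) (hν : ∀ a, m2 μ N N a a ≤ ν) (h1 : ν ≤ f.nu)
    (h24 : ν ^ 3 ≤ 24 * hh μ (Matrix.diagonal j) x N)
    (hlaw : ok c = true → ν ≤ c.nu → ν ^ 3 ≤ c.cf * hh μ (Matrix.diagonal j) x N →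
      ∀ L : ℝ, (∀ a, L ≤ L8 m j a) → L * √(uu μ N) ≤ c.kn * hh μ (Matrix.diagonal j) x N)
    (ha : (f.ha : ℝ) ≤ hh μ (Matrix.diagonal j) x N)
    (hb : hh μ (Matrix.diagonal j) x N ≤ f.hb) :
    f.L * √(uu μ N) ≤ f.K * hh μ (Matrix.diagonal j) x N + f.R := by
  unfold elOK at hok
  simp only [Bool.and_eq_true, Bool.or_eq_true, decide_eq_true_eq] at hok
  obtain ⟨⟨⟨⟨⟨⟨⟨⟨k1, k2⟩, k3⟩, k4⟩, k5⟩, k6⟩, k7⟩, k8⟩, k9⟩ := hok
  have q2 : (0 : ℝ) < m0 := by exact_mod_cast k2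
  have q3 : (f.nu : ℝ) ≤ c.nu := by exact_mod_cast k3
  have q4 : (f.nu : ℝ) ≤ 1 / 3 := by
    have := (Rat.cast_le (K := ℝ)).2 k4
    push_cast at this
    exact this
  have q6 : (0 : ℝ) < f.L := by exact_mod_cast k6
  have q7 : (0 : ℝ) ≤ f.R := by exact_mod_cast k7
  have q8 : (0 : ℝ) < lcQ m0 f.nu f.hb := by exact_mod_cast k8
  have q9 : (f.L : ℝ) * c.kn ≤ f.K * (lcQ m0 f.nu f.hb : ℚ) := by exact_mod_cast k9
  set h := hh μ (Matrix.diagonal j) x N with hhd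
  have h0 : 0 ≤ h := hT.hh_nonneg _
  have hc : ν ^ 3 ≤ c.cf * h := by
    rcases k5 with k | ⟨ka, kb⟩
    · have : (24 : ℝ) ≤ c.cf := by exact_mod_cast k
      exact h24.trans (mul_le_mul_of_nonneg_right this h0)
    · have r1 : (0 : ℝ) ≤ c.cf := by exact_mod_cast ka
      have r2 : (f.nu : ℝ) ^ 3 ≤ c.cf * f.ha := by exact_mod_cast kb
      have r3 : ν ^ 3 ≤ (f.nu : ℝ) ^ 3 := pow_le_pow_left₀ hν0.le h1 3
      exact r3.trans (r2.trans (mul_le_mul_of_nonneg_left ha r1))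
  have e : ((lcQ m0 f.nu f.hb : ℚ) : ℝ) = (1 - 4 * (f.nu : ℝ) - (f.nu : ℝ) ^ 2)
      / (1 - (f.nu : ℝ) ^ 2) - 2 * f.hb / (1 - f.nu)
        - 2 / ((m0 : ℝ) + 1) * (2 * f.nu / (1 - (f.nu : ℝ) ^ 2) + f.hb) := by
    unfold lcQ
    push_cast
    rfl
  have w := hlaw k1 (h1.trans q3) hc (lcQ m0 f.nu f.hb : ℚ) fun a => by
    rw [e]
    exact L8_nu hT hL q2 hm0 (hν0.le.trans h1) q4 (fun a => (hν a).trans h1) hb a
  have s0 : 0 ≤ √(uu μ N) := Real.sqrt_nonneg _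
  have w1 := mul_le_mul_of_nonneg_left w q6.le
  have w2 := mul_le_mul_of_nonneg_right q9 h0
  have w3 : ((lcQ m0 f.nu f.hb : ℚ) : ℝ) * (f.L * √(uu μ N))
      ≤ ((lcQ m0 f.nu f.hb : ℚ) : ℝ) * (f.K * h) := by linarith
  have w4 := le_of_mul_le_mul_left w3 q8
  linarith

end

section

variable {X : Type*} {E : Type*} [NormedAddCommGroup E] [InnerProductSpace ℝ E]
  [FiniteDimensional ℝ E] [TopologicalSpace X] [MeasurableSpace X] [CompactSpace X] [BorelSpace X]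
  {μ : Measure X} {m : ℕ} {p n : X → E} {ι : Type*} [Fintype ι] [DecidableEq ι]

/-- the bound from the record -/
theorem el_of_ok {m0 : ℚ} {f : ElR} {c : CqR} (hok : elOK m0 okD f c = true)
    (h : OneP μ m p n) (b : OrthonormalBasis ι ℝ E) {j : ι → ℝ}
    (hT : T0Data μ m (cob b p) (cob b n))
    (hL : LSq μ (Matrix.diagonal j) (cob b p) (cob b n)) (hm0 : (m0 : ℝ) ≤ m) {ν : ℝ}
    (hν0 : 0 < ν) (hν : ∀ a, m2 μ (cob b n) (cob b n) a a ≤ ν) (h1 : ν ≤ f.nu)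
    (h24 : ν ^ 3 ≤ 24 * hh μ (Matrix.diagonal j) (cob b p) (cob b n))
    (ha : (f.ha : ℝ) ≤ hh μ (Matrix.diagonal j) (cob b p) (cob b n))
    (hb : hh μ (Matrix.diagonal j) (cob b p) (cob b n) ≤ f.hb) :
    f.L * √(uu μ (cob b n)) ≤ f.K * hh μ (Matrix.diagonal j) (cob b p) (cob b n) + f.R := by
  have k2 : (0 : ℝ) < m0 := by
    have hok' := hok
    unfold elOK at hok'
    simp only [Bool.and_eq_true, decide_eq_true_eq] at hok'
    obtain ⟨⟨⟨⟨⟨⟨⟨⟨-, k2⟩, -⟩, -⟩, -⟩, -⟩, -⟩, -⟩, -⟩ := hok'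
    exact_mod_cast k2
  have hm : 0 < m := by
    have : (0 : ℝ) < m := k2.trans_le hm0
    exact_mod_cast this
  exact el_of_law hok hT hL hm0 hν0 hν h1 h24
    (fun r1 r2 r3 L r4 => cd_of_ok r1 h hm b hT hL hν0 hν r2 r3 r4) ha hb

end

end Vale.Agent.P224.R2.H579
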