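import Vale.Agent.P224.R2.H590.PtwH

/-!
The mean normal law with the square of the deviation paying for the tails of the linear terms.
-/

namespace Vale.Agent.P224.R2.H579

open MeasureTheory Matrix Finset Filter
open Vale.Agent.P224.R2.H728 Vale.Agent.P224.R2.H590

set_option linter.unusedSectionVars false

noncomputable section

section

variable {ι : Type*} [Fintype ι] [DecidableEq ι] {m : ℝ} {j u n v : ι → ℝ}

/-- the sharp bound of the main term with the negative square -/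
lemma main_sharp6 (hn : ∑ a, n a ^ 2 = 1) (hv : ∑ a, v a ^ 2 ≤ 1) :
    1 / 2 * ((∑ b, zz j u n b ^ 2) * (∑ a, v a * n a))
        + 3 / 2 * ((∑ a, j a ^ 2 * u a ^ 2 - 1) * (∑ a, v a * zz j u n a))
      ≤ (3 / 2 + (∑ a, j a ^ 2 * u a ^ 2 - 1) / 4 - ∑ a, v a * (j a * u a)
          - (∑ b, zz j u n b ^ 2) / 6) * (∑ b, zz j u n b ^ 2) := by
  have h1 := main_norm (j := j) (u := u) hn
  set s := ∑ b, zz j u n b ^ 2 with hs
  set q := ∑ a, j a ^ 2 * u a ^ 2 - 1 with hq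
  have hs0 : 0 ≤ s := Finset.sum_nonneg fun a _ => sq_nonneg _
  have h2 := Finset.sum_mul_sq_le_sq_mul_sq Finset.univ v fun a =>
    1 / 2 * (s + 3 * q) * zz j u n a + 3 / 2 * s * (j a * u a)
  rw [h1] at h2
  have h3 : 0 ≤ s ^ 2 * (9 / 4 + 3 / 4 * q - s / 2) := by
    rw [← h1]
    exact Finset.sum_nonneg fun a _ => sq_nonneg _
  clear_value s q
  have e1 : ∑ a, v a * (1 / 2 * (s + 3 * q) * zz j u n a + 3 / 2 * s * (j a * u a))
      = 1 / 2 * (s + 3 * q) * (∑ a, v a * zz j u n a)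
        + 3 / 2 * s * ∑ a, v a * (j a * u a) := by
    rw [Finset.mul_sum, Finset.mul_sum, ← Finset.sum_add_distrib]
    exact Finset.sum_congr rfl fun a _ => by ring
  have e2 : ∑ a, v a * n a = ∑ a, v a * zz j u n a + ∑ a, v a * (j a * u a) := by
    rw [← Finset.sum_add_distrib]
    refine Finset.sum_congr rfl fun a _ => ?_
    unfold zz
    ring
  rw [e1] at h2
  rw [e2]
  set Z := ∑ a, v a * zz j u n a
  set Y := ∑ a, v a * (j a * u a)
  clear_value Z Y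
  rcases hs0.eq_or_lt with h0 | h0
  · subst h0
    have h4 : (3 / 2 * q * Z) ^ 2 ≤ 0 := by nlinarith
    have h5 : 3 / 2 * q * Z = 0 := by
      have := le_antisymm h4 (sq_nonneg _)
      exact pow_eq_zero_iff (two_ne_zero) |>.1 this
    nlinarith
  · have hX : 0 ≤ 9 / 4 + 3 / 4 * q - s / 2 := by
      by_contra hc
      push Not at hc
      have := mul_neg_of_pos_of_neg (pow_pos h0 2) hc
      linarith
    have h4 : (1 / 2 * (s + 3 * q) * Z + 3 / 2 * s * Y) ^ 2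
        ≤ (s * (3 / 2 + q / 4 - s / 6)) ^ 2 := by
      refine h2.trans ?_
      have k1 : (∑ a, v a ^ 2) * (s ^ 2 * (9 / 4 + 3 / 4 * q - s / 2))
          ≤ s ^ 2 * (9 / 4 + 3 / 4 * q - s / 2) := by nlinarith
      refine k1.trans ?_
      rw [mul_pow]
      refine mul_le_mul_of_nonneg_left ?_ (sq_nonneg s)
      nlinarith [sq_nonneg (q / 4 - s / 6)]
    have h5 := (abs_le.1 (abs_le_of_sq_le_sq h4 (mul_nonneg h0.le (by linarith)))).2
    nlinarith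

/-- **the sharp pointwise bound with the negative square** -/
theorem ptwS (hm : 0 < m) {ρ κ : ℝ} (hρ : 0 < ρ) (hρm : ρ ^ 2 ≤ (m + 2) / 2) (hκ : 0 ≤ κ)
    (h1 : 9 / 8 * ρ ^ 2 ≤ κ * ((m + 2) / 2)) (h2 : 9 / 4 * ρ ^ 2 ≤ κ * ((m + 2) / 2 + ρ ^ 2))
    (hj : ∀ a, |j a| ≤ ρ) (hn : ∑ a, n a ^ 2 = 1) (hv : ∑ a, v a ^ 2 ≤ 1) :
    ∑ a, v a * G8 m j u n a
      ≤ (3 / 2 + (∑ a, j a ^ 2 * u a ^ 2 - 1) / 4 - ∑ a, v a * (j a * u a)
          - (∑ b, zz j u n b ^ 2) / 6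
          + (ρ ^ 2 / (m + 2) + κ) * √(∑ a, j a ^ 2 * u a ^ 2) + lx m ρ j v u)
        * (∑ b, zz j u n b ^ 2) := by
  have hH0 : 0 < (m + 2) / 2 := by positivity
  rw [G8_split hm]
  have k1 := main_sharp6 (j := j) (u := u) hn hv
  have k2 := T2_le (v := v) (u := u) hρ hρm hj (zz j u n)
  have k3 := corr3_le (u := u) hH0 hj hv (zz j u n)
  have k4 := T4_le (u := u) hH0 h1 h2 hκ hj hv (zz j u n)
  have e1 : ∑ a, v a * n a = ∑ a, v a * zz j u n a + ∑ a, v a * (j a * u a) := by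
    rw [← Finset.sum_add_distrib]
    refine Finset.sum_congr rfl fun a _ => ?_
    unfold zz
    ring
  have e2 : 2 * ∑ b, j b * u b * zz j u n b
      = -(∑ a, j a ^ 2 * u a ^ 2 - 1) - ∑ b, zz j u n b ^ 2 := by
    have : (1 : ℝ) = ∑ a, n a ^ 2 := hn.symm
    rw [this, Finset.mul_sum, ← Finset.sum_sub_distrib, ← Finset.sum_neg_distrib,
      ← Finset.sum_sub_distrib]
    refine Finset.sum_congr rfl fun a _ => ?_
    unfold zz
    ring
  have e3 : ρ ^ 2 / ((m + 2) / 2) = 2 * (ρ ^ 2 / (m + 2)) := by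
    field_simp
  rw [e3] at k3
  rw [e1] at k1
  unfold lx
  set s := ∑ b, zz j u n b ^ 2
  set r := √(∑ a, j a ^ 2 * u a ^ 2)
  set q := ∑ a, j a ^ 2 * u a ^ 2 - 1
  set zv := ∑ a, v a * zz j u n a
  set yv := ∑ a, v a * (j a * u a)
  set yz := ∑ b, j b * u b * zz j u n b
  set X := |∑ a, ((m + 2) / 2 + j a ^ 2) * v a / ((m + 2) / 2 + ρ ^ 2) * u a|
  have e4 : yz = (-q - s) / 2 := by linarith
  rw [e4]
  nlinarith

/-- the scalar step: the negative square pays for the tails -/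
lemma pay_tail {s c0 be q1 t θ q r c A B : ℝ} (hs : 0 ≤ s) (hθ : 0 < θ) (hc : 0 ≤ c)
    (hr : r ≤ 1 + q / 2) (hbe : be = 1 / 4 + c / 2) (hc0 : c0 = 3 / 2 + c + be * q1 + 2 * t) :
    (3 / 2 + q / 4 - s / 6 + c * r + A + B) * s
      ≤ c0 * s + (3 * (1 + θ) * (max (A - t) 0 ^ 2 + max (B - t) 0 ^ 2)
        + 3 / 2 * (1 + 1 / θ) * (be ^ 2 * max (q - q1) 0 ^ 2)) := by
  have hb0 : 0 ≤ be := by rw [hbe]; positivity
  have k1 : q ≤ q1 + max (q - q1) 0 := by linarith [le_max_left (q - q1) 0]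
  have k2 : A ≤ t + max (A - t) 0 := by linarith [le_max_left (A - t) 0]
  have k3 : B ≤ t + max (B - t) 0 := by linarith [le_max_left (B - t) 0]
  set Q := max (q - q1) 0
  set a := max (A - t) 0
  set b := max (B - t) 0
  have k4 : 3 / 2 + q / 4 - s / 6 + c * r + A + B ≤ c0 + (be * Q + a + b) - s / 6 := by
    have h1 := mul_le_mul_of_nonneg_left hr hc
    have h2 := mul_le_mul_of_nonneg_left k1 hb0
    have h3 : c * (1 + q / 2) = c + (be - 1 / 4) * q := by rw [hbe]; ring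
    rw [hc0]
    linarith
  have k5 := mul_le_mul_of_nonneg_right k4 hs
  refine k5.trans ?_
  have k6 : (c0 + (be * Q + a + b) - s / 6) * s
      = c0 * s + 3 / 2 * (be * Q + a + b) ^ 2 - 1 / 6 * (s - 3 * (be * Q + a + b)) ^ 2 := by ring
  have k7 : (be * Q + (a + b)) ^ 2 ≤ (1 + θ) * (a + b) ^ 2 + (1 + 1 / θ) * (be * Q) ^ 2 := by
    have e : (1 + θ) * (a + b) ^ 2 + (1 + 1 / θ) * (be * Q) ^ 2 - (be * Q + (a + b)) ^ 2
        = (θ * (a + b) - be * Q) ^ 2 / θ := by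
      field_simp
      ring
    have : 0 ≤ (θ * (a + b) - be * Q) ^ 2 / θ := by positivity
    linarith
  have k8 : (a + b) ^ 2 ≤ 2 * (a ^ 2 + b ^ 2) := by nlinarith [sq_nonneg (a - b)]
  have k9 := mul_le_mul_of_nonneg_left k8 (by positivity : 0 ≤ 1 + θ)
  rw [k6]
  have k10 : be * Q + a + b = be * Q + (a + b) := by ring
  rw [k10]
  nlinarith [sq_nonneg (s - 3 * (be * Q + (a + b)))]

end

section

variable {ι Ω : Type*} [Fintype ι] [DecidableEq ι] [MeasurableSpace Ω] {μ : Measure Ω}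
  {m : ℝ} {x N : ι → Ω → ℝ} {j : ι → ℝ}

lemma bm_max {f : Ω → ℝ} (hf : BM f) (t : ℝ) : BM fun ω => max (f ω - t) 0 := by
  obtain ⟨h1, C, h2⟩ := hf
  refine ⟨(h1.sub measurable_const).max measurable_const, C + |t|, fun ω => ?_⟩
  rw [abs_of_nonneg (le_max_right _ _)]
  have h3 := h2 ω
  have h4 := le_abs_self (f ω)
  have h5 := neg_abs_le t
  have h6 := abs_nonneg (f ω)
  have h7 := abs_nonneg t
  exact max_le (by linarith) (by linarith)

/-- **The mean normal law with paid tails.** -/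
theorem el_cs (h : T0Data μ m x N) (hm : 0 < m) {L ρ κ T1 T2 t q1 θ be : ℝ}
    (hL8 : ∀ a, L ≤ L8 m j a)
    (hρ : 0 < ρ) (hρm : ρ ^ 2 ≤ (m + 2) / 2) (hκ : 0 ≤ κ) (h1 : 9 / 8 * ρ ^ 2 ≤ κ * ((m + 2) / 2))
    (h2 : 9 / 4 * ρ ^ 2 ≤ κ * ((m + 2) / 2 + ρ ^ 2)) (hj : ∀ a, |j a| ≤ ρ)
    (ht : 0 ≤ t) (hq1 : 0 ≤ q1) (hθ : 0 < θ) (hbe : be = 1 / 4 + (ρ ^ 2 / (m + 2) + κ) / 2)
    (hT1 : ∀ v' : ι → ℝ, ∑ a, v' a ^ 2 ≤ 1 →
      ∫ ω, max (ρ * |∑ a, v' a * x a ω| - t) 0 ^ 2 ∂μ ≤ T1)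
    (hT2 : ∫ ω, max (qj j x ω - q1) 0 ^ 2 ∂μ ≤ T2) :
    L * √(uu μ N) ≤ (3 / 2 + (ρ ^ 2 / (m + 2) + κ) + be * q1 + 2 * t) * hh μ (diagonal j) x N
      + 6 * (1 + θ) * T1 + 3 / 2 * (1 + 1 / θ) * (be ^ 2 * T2) := by
  have := h.prob
  have bz := h.bzd j
  have hhn : 0 ≤ hh μ (diagonal j) x N := h.hh_nonneg _
  set c := ρ ^ 2 / (m + 2) + κ with hc
  have hc0 : 0 ≤ c := by positivity
  have hb0 : 0 ≤ be := by rw [hbe]; positivity
  have hT10 : 0 ≤ T1 := le_trans (integral_nonneg fun ω => sq_nonneg _) (hT1 (fun _ => 0) (by simp))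
  have hT20 : 0 ≤ T2 := le_trans (integral_nonneg fun ω => sq_nonneg _) hT2
  rcases (Real.sqrt_nonneg (uu μ N)).eq_or_lt with h0 | h0
  · rw [← h0, mul_zero]
    positivity
  obtain ⟨v, hv, he⟩ := exists_dir h (√(uu μ N)) h0 rfl
  have hH0 : 0 < (m + 2) / 2 := by positivity
  set v1 : ι → ℝ := fun a => ((m + 2) / 2 + j a ^ 2) * v a / ((m + 2) / 2 + ρ ^ 2) with hv1
  set v2 : ι → ℝ := fun a => v a * j a / ρ with hv2
  have hv1' : ∑ a, v1 a ^ 2 ≤ 1 := short_vec hH0 hj hv.le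
  have hv2' : ∑ a, v2 a ^ 2 ≤ 1 := by
    refine le_trans (Finset.sum_le_sum fun a _ => ?_) hv.le
    rw [hv2]
    simp only
    rw [div_pow, mul_pow, div_le_iff₀ (by positivity)]
    have k1 : j a ^ 2 ≤ ρ ^ 2 := by
      rw [← sq_abs]
      exact pow_le_pow_left₀ (abs_nonneg _) (hj a) 2
    exact mul_le_mul_of_nonneg_left k1 (sq_nonneg _)
  have bl : ∀ w : ι → ℝ, BM fun ω => max (ρ * |∑ a, w a * x a ω| - t) 0 ^ 2 := fun w =>
    (bm_max ((H807.BM.abs (BM.sum _ fun a _ => (h.bx a).const_mul _)).const_mul ρ) t).pow 2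
  have bq : BM fun ω => max (qj j x ω - q1) 0 ^ 2 := (bm_max (bqj h j) q1).pow 2
  set c0 := 3 / 2 + c + be * q1 + 2 * t with hc0'
  have b0 : BM fun ω => c0 * sz j x N ω := (bsz h j).const_mul _
  have b1 : BM fun ω => 3 * (1 + θ) * (max (ρ * |∑ a, v2 a * x a ω| - t) 0 ^ 2
      + max (ρ * |∑ a, v1 a * x a ω| - t) 0 ^ 2) := ((bl v2).add (bl v1)).const_mul _
  have b2 : BM fun ω => 3 / 2 * (1 + 1 / θ) * (be ^ 2 * max (qj j x ω - q1) 0 ^ 2) :=
    (bq.const_mul _).const_mul _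
  have hp : ∀ ω, ∑ a, v a * G8 m j (fun b => x b ω) (fun b => N b ω) a
      ≤ c0 * sz j x N ω + (3 * (1 + θ) * (max (ρ * |∑ a, v2 a * x a ω| - t) 0 ^ 2
        + max (ρ * |∑ a, v1 a * x a ω| - t) 0 ^ 2)
        + 3 / 2 * (1 + 1 / θ) * (be ^ 2 * max (qj j x ω - q1) 0 ^ 2)) := by
    intro ω
    have k := ptwS (u := fun b => x b ω) (n := fun b => N b ω) hm hρ hρm hκ h1 h2 hj (h.uN ω) hv.le
    have e2 : ∑ b, zz j (fun b => x b ω) (fun b => N b ω) b ^ 2 = sz j x N ω := by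
      unfold sz
      exact Finset.sum_congr rfl fun b _ => by
        have e1 : zz j (fun b => x b ω) (fun b => N b ω) b = zd j x N b ω := rfl
        rw [e1, sq]
    have e3 : √(∑ a, j a ^ 2 * x a ω ^ 2) = rr j x ω := rfl
    have e4 : lx m ρ j v (fun b => x b ω) = ρ * |∑ a, v1 a * x a ω| := rfl
    have e5 : ∑ a, v a * (j a * x a ω) = ρ * ∑ a, v2 a * x a ω := by
      rw [Finset.mul_sum]
      refine Finset.sum_congr rfl fun a _ => ?_
      rw [hv2]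
      field_simp
    have e6 : ∑ a, j a ^ 2 * x a ω ^ 2 - 1 = qj j x ω := rfl
    rw [e2, e3, e4, e5, e6, ← hc] at k
    refine k.trans ?_
    have s0 := sz_nonneg j x N ω
    have hr : rr j x ω ≤ 1 + qj j x ω / 2 := by
      rw [qj_eq]
      nlinarith [sq_nonneg (rr j x ω - 1)]
    have k5 : -(ρ * ∑ a, v2 a * x a ω) ≤ ρ * |∑ a, v2 a * x a ω| := by
      have := neg_abs_le (∑ a, v2 a * x a ω)
      nlinarith
    have k6 := mul_le_mul_of_nonneg_right k5 s0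
    have k7 := pay_tail (q := qj j x ω) (r := rr j x ω) (A := ρ * |∑ a, v2 a * x a ω|)
      (B := ρ * |∑ a, v1 a * x a ω|) (t := t) s0 hθ hc0 hr hbe hc0'
    have e7 : (3 / 2 + qj j x ω / 4 - ρ * ∑ a, v2 a * x a ω - sz j x N ω / 6 + c * rr j x ω
          + ρ * |∑ a, v1 a * x a ω|) * sz j x N ω
        = (3 / 2 + qj j x ω / 4 - sz j x N ω / 6 + c * rr j x ω + ρ * |∑ a, v2 a * x a ω|
          + ρ * |∑ a, v1 a * x a ω|) * sz j x N ω
          + (-(ρ * ∑ a, v2 a * x a ω) * sz j x N ω - ρ * |∑ a, v2 a * x a ω| * sz j x N ω) := by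
      ring
    rw [e7]
    linarith
  have h3 := law8_dir h hm j v hv he (Real.sqrt_nonneg _) hL8 (b0.add (b1.add b2)) hp
  rw [integral_add b0.int (b1.add b2).int, integral_add b1.int b2.int] at h3
  simp only [integral_const_mul] at h3
  rw [integral_add (bl v2).int (bl v1).int, ← hh_sz h j] at h3
  have q1' := hT1 v1 hv1'
  have q2' := hT1 v2 hv2'
  have q3 := mul_le_mul_of_nonneg_left (add_le_add q2' q1') (by positivity : 0 ≤ 3 * (1 + θ))
  have q4 := mul_le_mul_of_nonneg_left (mul_le_mul_of_nonneg_left hT2 (sq_nonneg be))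
    (by positivity : 0 ≤ 3 / 2 * (1 + 1 / θ))
  linarith

end

end

end Vale.Agent.P224.R2.H579
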