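import Vale.Agent.P224.R2.H579.ElS
import Vale.Agent.P224.R2.H714.Row
import Vale.Agent.P224.R2.H470.Mun
import Vale.Agent.P224.R2.H590.Eq2

/-!
The tails of the linear form and of the quadratic form, uniform in the dimension.
-/

namespace Vale.Agent.P224.R2.H579

open MeasureTheory Module Function Set Vale.Agent.P224.R2.H470 Vale.Agent.P224.R2.H662
  Vale.Agent.P224.R2.H728 Vale.Agent.P224.R2.H590 Vale.Agent.P224.R2.H714
open scoped RealInnerProductSpace Topology ContDiff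

set_option linter.unusedSectionVars false

noncomputable section

/-- the constant of the truncated square against the power `2 (n + 1)` -/
def ck (n : ℕ) : ℝ := (n : ℝ) ^ (2 * n) / ((n : ℝ) + 1) ^ (2 * (n + 1))

lemma ck_nonneg (n : ℕ) : 0 ≤ ck n := by unfold ck; positivity

lemma tail_pow {a t : ℝ} (ht : 0 < t) {n : ℕ} (hn : 1 ≤ n) :
    max (|a| - t) 0 ^ 2 ≤ ck n * a ^ (2 * (n + 1)) / t ^ (2 * n) := by
  have n1 : (1 : ℝ) ≤ n := by exact_mod_cast hn
  have n0 : (0 : ℝ) < n := by linarith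
  have hR : 0 ≤ ck n * a ^ (2 * (n + 1)) / t ^ (2 * n) := by
    have := ck_nonneg n
    have h2 : 0 ≤ a ^ (2 * (n + 1)) := (even_two_mul _).pow_nonneg _
    positivity
  rcases le_total (|a| - t) 0 with h | h
  · rw [max_eq_right h, zero_pow two_ne_zero]
    exact hR
  rw [max_eq_left h]
  have h1 := one_add_mul_le_pow (a := |a| / t * (n / (n + 1)) - 1)
    (by have : 0 ≤ |a| / t * (n / (n + 1)) := by positivity
        linarith) (n + 1)
  have e1 : (1 : ℝ) + (|a| / t * (n / (n + 1)) - 1) = |a| / t * (n / (n + 1)) := by ring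
  rw [e1] at h1
  push_cast at h1
  have e2 : 1 + ((n : ℝ) + 1) * (|a| / t * (n / (n + 1)) - 1) = n * ((|a| - t) / t) := by
    field_simp
    ring
  rw [e2] at h1
  have h3 : |a| - t ≤ t / n * (|a| / t * (n / (n + 1))) ^ (n + 1) := by
    have := mul_le_mul_of_nonneg_left h1 (by positivity : (0 : ℝ) ≤ t / n)
    have e3 : t / n * (n * ((|a| - t) / t)) = |a| - t := by field_simp
    rw [e3] at this
    exact this
  have h4 := pow_le_pow_left₀ h h3 2
  refine h4.trans (le_of_eq ?_)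
  have e4 : a ^ (2 * (n + 1)) = |a| ^ (2 * (n + 1)) := by
    rw [pow_mul, pow_mul, sq_abs]
  rw [e4]
  unfold ck
  rw [mul_pow, mul_pow, mul_pow, div_pow, div_pow, div_pow, div_pow]
  field_simp
  ring

section

variable {X : Type*} {E : Type*} [NormedAddCommGroup E] [InnerProductSpace ℝ E]
  [FiniteDimensional ℝ E] [TopologicalSpace X] [MeasurableSpace X] [CompactSpace X] [BorelSpace X]
  {μ : Measure X} {m : ℕ} {p n : X → E} {ι : Type*} [Fintype ι]

/-- the tail of the linear form -/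
theorem lin_tail [IsProbabilityMeasure μ] (h : OneP μ m p n) {w : E} (hw : ‖w‖ ≤ 1)
    {ρ κ t : ℝ} (hρ : 0 ≤ ρ) (hκ : ρ ^ 2 ≤ κ * (m + 1)) (ht : 0 < t) {k : ℕ} (hk : 1 ≤ k) :
    ∫ x, max (ρ * |⟪p x, w⟫| - t) 0 ^ 2 ∂μ
      ≤ ck k * (κ ^ (k + 1) * df (k + 1)) / t ^ (2 * k) := by
  have cp := h.cp
  have hm : (0 : ℝ) < m + 1 := by positivity
  have hκ0 : 0 ≤ κ := by
    by_contra hc
    push Not at hc
    nlinarith [sq_nonneg ρ]
  have h1 : ∫ x, max (ρ * |⟪p x, w⟫| - t) 0 ^ 2 ∂μ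
      ≤ ∫ x, ck k / t ^ (2 * k) * ρ ^ (2 * (k + 1)) * ⟪p x, w⟫ ^ (2 * (k + 1)) ∂μ := by
    refine integral_mono (int_of_cont (by fun_prop)) (int_of_cont (by fun_prop)) fun x => ?_
    have h2 := tail_pow (a := ρ * ⟪p x, w⟫) ht hk
    rw [abs_mul, abs_of_nonneg hρ] at h2
    refine h2.trans (le_of_eq ?_)
    rw [mul_pow]
    ring
  rw [integral_const_mul] at h1
  refine h1.trans ?_
  have h3 := mom_w h hw (k + 1)
  have c0 : 0 ≤ ck k / t ^ (2 * k) := div_nonneg (ck_nonneg k) (by positivity)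
  have h4 : ρ ^ (2 * (k + 1)) ≤ (κ * (m + 1)) ^ (k + 1) := by
    rw [pow_mul]
    exact pow_le_pow_left₀ (sq_nonneg ρ) hκ _
  have h5 : 0 ≤ ∫ x, ⟪p x, w⟫ ^ (2 * (k + 1)) ∂μ :=
    integral_nonneg fun x => (even_two_mul _).pow_nonneg _
  calc ck k / t ^ (2 * k) * ρ ^ (2 * (k + 1)) * ∫ x, ⟪p x, w⟫ ^ (2 * (k + 1)) ∂μ
      ≤ ck k / t ^ (2 * k) * (κ * (m + 1)) ^ (k + 1) * (df (k + 1) / ((m : ℝ) + 1) ^ (k + 1)) := by
        refine mul_le_mul (mul_le_mul_of_nonneg_left h4 c0) h3 h5 ?_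
        positivity
    _ = _ := by
        rw [mul_pow]
        field_simp

/-- the tail of the quadratic form from its exponential row -/
theorem quad_tail [IsProbabilityMeasure μ] (h : OneP μ m p n) (b : OrthonormalBasis ι ℝ E)
    {j : ι → ℝ} {l s g c : ℝ} (hl : 0 < l) (hg : 0 < g) (hs : s + g ≤ c)
    (hrow : ∫ x, Real.exp (l * qd b j p x) * (qd b j p x - s) ∂μ ≤ 0) :
    ∫ x, max (qd b j p x - c) 0 ^ 2 ∂μ ≤ 4 / (l ^ 3 * g) * Real.exp (-(l * g + 3)) := by
  have cp := h.cp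
  have cn := h.cn
  have cq : Continuous fun x => qd b j p x := by
    unfold qd
    fun_prop
  set K := 4 / (l ^ 2 * g) * Real.exp (-2) * Real.exp (-(l * c)) with hK
  have hK0 : 0 ≤ K := by positivity
  have h1 := tail_of_row (w := fun x => max (qd b j p x - c) 0 ^ 2) hl hK0
    (int_of_cont (by fun_prop)) hrow (int_of_cont (by fun_prop)) fun x => ?_
  · refine h1.trans ?_
    have e1 : K * (Real.exp (l * s - 1) / l)
        = 4 / (l ^ 3 * g) * (Real.exp (-2) * Real.exp (-(l * c)) * Real.exp (l * s - 1)) := by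
      rw [hK]
      field_simp
    rw [e1, ← Real.exp_add, ← Real.exp_add]
    refine mul_le_mul_of_nonneg_left (Real.exp_le_exp.2 ?_) (by positivity)
    nlinarith
  · have e0 : 0 ≤ K * (Real.exp (l * qd b j p x) * max (qd b j p x - s) 0) :=
      mul_nonneg hK0 (mul_nonneg (Real.exp_pos _).le (le_max_right _ _))
    rcases le_total (qd b j p x - c) 0 with hc | hc
    · rw [max_eq_right hc, zero_pow two_ne_zero]
      exact e0
    · rw [max_eq_left hc]
      set q := qd b j p x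
      have k1 : (q - c) ^ 2 ≤ 4 / l ^ 2 * (Real.exp (-2) * Real.exp (l * (q - c))) := by
        have k2 := Real.add_one_le_exp (l * (q - c) / 2 - 1)
        have k3 : l * (q - c) / 2 ≤ Real.exp (l * (q - c) / 2 - 1) := by linarith
        have k4 : (l * (q - c) / 2) ^ 2 ≤ Real.exp (l * (q - c) / 2 - 1) ^ 2 :=
          pow_le_pow_left₀ (by positivity) k3 2
        have k5 : Real.exp (l * (q - c) / 2 - 1) ^ 2 = Real.exp (-2) * Real.exp (l * (q - c)) := by
          rw [← Real.exp_add, ← Real.exp_nat_mul]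
          congr 1
          push_cast
          ring
        rw [k5] at k4
        rw [div_mul_eq_mul_div, le_div_iff₀ (by positivity)]
        nlinarith
      have k6 : Real.exp (l * (q - c)) = Real.exp (-(l * c)) * Real.exp (l * q) := by
        rw [← Real.exp_add]
        congr 1
        ring
      have k7 : g ≤ max (q - s) 0 := le_trans (by linarith) (le_max_left _ _)
      have k8 : 4 / l ^ 2 * (Real.exp (-2) * Real.exp (l * (q - c)))
          = K * (Real.exp (l * q) * g) := by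
        rw [k6, hK]
        field_simp
      rw [k8] at k1
      refine k1.trans (mul_le_mul_of_nonneg_left ?_ hK0)
      exact mul_le_mul_of_nonneg_left k7 (Real.exp_pos _).le

/-- numeric bound of the exponential -/
lemma exp_num {y f : ℝ} {k : ℕ} (hf : 0 ≤ f) (hk : k + f ≤ y) :
    Real.exp (-y) ≤ (500 / 1359) ^ k / (1 + f + f ^ 2 / 2) := by
  have k1 : Real.exp (-y) ≤ Real.exp (-(k : ℝ)) * Real.exp (-f) := by
    rw [← Real.exp_add]
    exact Real.exp_le_exp.2 (by linarith)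
  have k2 : Real.exp (-(k : ℝ)) ≤ (500 / 1359) ^ k := by
    have h2 : Real.exp (-(k : ℝ)) = (Real.exp 1 ^ k)⁻¹ := by
      rw [← Real.exp_nat_mul, ← Real.exp_neg, mul_one]
    rw [h2]
    have h3 : (500 / 1359 : ℝ) ^ k = ((1359 / 500) ^ k)⁻¹ := by
      rw [← inv_pow]
      norm_num
    rw [h3]
    have h4 := Real.exp_one_gt_d9
    exact inv_anti₀ (by positivity) (pow_le_pow_left₀ (by norm_num) (by linarith) k)
  have k3 : Real.exp (-f) ≤ (1 + f + f ^ 2 / 2)⁻¹ := by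
    rw [Real.exp_neg]
    exact inv_anti₀ (by positivity) (Real.quadratic_le_exp_of_nonneg hf)
  rw [div_eq_mul_inv]
  exact k1.trans (mul_le_mul k2 k3 (Real.exp_pos _).le (by positivity))

variable [DecidableEq ι]

/-- the exponential row with the supremum bound `κ` and the Hilbert-Schmidt bound `D` -/
theorem row_kap (h : OneP μ m p n) (b : OrthonormalBasis ι ℝ E) {j : ι → ℝ}
    (hT : T0Data μ m (cob b p) (cob b n))
    (hL : LSq μ (Matrix.diagonal j) (cob b p) (cob b n)) {δ e H D l κ : ℝ}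
    (hδ : 0 ≤ δ) (hδ1 : δ < 1) (hf : fro (De μ (cob b p) (cob b n)) ≤ δ ^ 2)
    (hH : hh μ (Matrix.diagonal j) (cob b p) (cob b n) ≤ H)
    (he : 1 ≤ e * (m + 1)) (heD : e ≤ D) (heκ : e ≤ κ) (hκ : ∀ a, j a ^ 2 ≤ κ * (m + 1))
    (hD : (1 + e) ^ 2 * (δ ^ 2 + 2 * e * H) ≤ (D * (1 - δ)) ^ 2) (hl : 0 ≤ l)
    (hlk : 2 * l * (κ + e) < 1) :
    ∫ x, Real.exp (l * qd b j p x)
      * (qd b j p x - (1 + (δ * D + e) + 2 * l * D ^ 2 / (1 - 2 * l * (κ + e)))) ∂μ ≤ 0 := by
  have := hT.prob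
  have hm : (0 : ℝ) ≤ m := Nat.cast_nonneg m
  have hm1 : (0 : ℝ) < m + 1 := by linarith
  have h1δ : 0 < 1 - δ := by linarith
  have he0 : 0 < e := by
    by_contra hc
    push Not at hc
    nlinarith
  have hh0 : 0 ≤ hh μ (Matrix.diagonal j) (cob b p) (cob b n) := hT.hh_nonneg _
  have hD0 : 0 < D := by linarith
  have w2 : ∑ a, (j a ^ 2 - 1) ^ 2 ≤ D ^ 2 * ((m : ℝ) + 1) ^ 2 := by
    refine (H590.w_sq hT hm hL hδ hδ1 hf).trans ?_
    rw [← mul_div_assoc, div_le_iff₀ (by positivity)]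
    have k1 : ((m : ℝ) + 2) ≤ (1 + e) * (m + 1) := by linarith
    have k2 : ((m : ℝ) + 2) ^ 2 ≤ ((1 + e) * (m + 1)) ^ 2 := pow_le_pow_left₀ (by linarith) k1 2
    have k3 : 2 / ((m : ℝ) + 1) ≤ 2 * e := by
      rw [div_le_iff₀ hm1]
      linarith
    have k4 : δ ^ 2 + 2 / ((m : ℝ) + 1) * hh μ (Matrix.diagonal j) (cob b p) (cob b n)
        ≤ δ ^ 2 + 2 * e * H := by
      have := mul_le_mul k3 hH hh0 (by positivity)
      linarith
    have k5 : 0 ≤ δ ^ 2 + 2 / ((m : ℝ) + 1) * hh μ (Matrix.diagonal j) (cob b p) (cob b n) := by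
      positivity
    calc ((m : ℝ) + 2) ^ 2 * (δ ^ 2 + 2 / ((m : ℝ) + 1)
            * hh μ (Matrix.diagonal j) (cob b p) (cob b n))
        ≤ ((1 + e) * (m + 1)) ^ 2 * (δ ^ 2 + 2 * e * H) := mul_le_mul k2 k4 k5 (sq_nonneg _)
      _ = ((1 + e) ^ 2 * (δ ^ 2 + 2 * e * H)) * (m + 1) ^ 2 := by ring
      _ ≤ (D * (1 - δ)) ^ 2 * (m + 1) ^ 2 := mul_le_mul_of_nonneg_right hD (sq_nonneg _)
      _ = D ^ 2 * ((m : ℝ) + 1) ^ 2 * (1 - δ) ^ 2 := by ring
  have w2' : ∑ a, (j a ^ 2 - 1) ^ 2 ≤ (D * ((m : ℝ) + 1)) ^ 2 := by rw [mul_pow]; exact w2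
  have wt : ∑ a, (j a ^ 2 - 1) ≤ δ * (D * (m + 1)) :=
    hT.w_tr_le hm hL hδ hf (by positivity) w2'
  refine exp_row_J h b he (fun a => by linarith [hκ a]) ?_ ?_ w2 hl hlk
  · refine he.trans (mul_le_mul_of_nonneg_right heκ hm1.le)
  · linarith

end

end

end Vale.Agent.P224.R2.H579
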