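import Vale.Agent.P224.R2.H579.MeanSevenB
import Vale.Agent.P224.R2.H728.T0o

/-!
Lower bound of the factor of the mean normal identity.
-/

namespace Vale.Agent.P224.R2.H579

open MeasureTheory Set Filter Function Real Finset Matrix Vale.Agent.P224.R2.H728

set_option linter.unusedSectionVars false

/-- the loss -/
noncomputable def Ew (δ η : ℝ) : ℝ := η + ((δ + η) ^ 2 + η * (δ + η)) / (1 - δ)

lemma Ew_nonneg {δ η : ℝ} (hδ : 0 ≤ δ) (hδ1 : δ < 1) (hη : 0 ≤ η) : 0 ≤ Ew δ η := by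
  unfold Ew
  have : 0 < 1 - δ := by linarith
  positivity

section

variable {ι Ω : Type*} [Fintype ι] [DecidableEq ι] [MeasurableSpace Ω] {μ : Measure Ω}
  {m : ℝ} {x N : ι → Ω → ℝ} {j : ι → ℝ}

variable (h : T0Data μ m x N)
include h

/-- one weight from below -/
lemma f_ge (hm : 0 < m) (hL : LSq μ (Matrix.diagonal j) x N) {δ : ℝ} (hδ1 : δ < 1)
    {b : ι} (hd : dd μ x N b ≤ δ) :
    2 / (m + 4) + (m + 2) ^ 2 / (m + 4) * (2 / (m + 4) * (dd μ x N b - ss μ j x N b)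
      - m / (m + 4) * (dd μ x N b - ss μ j x N b) ^ 2 / ((1 - δ) * ((m + 2) / 2))
      - ss μ j x N b * |dd μ x N b - ss μ j x N b| / ((1 - δ) * ((m + 2) / 2)))
      ≤ j b ^ 2 / ((m + 2) / 2 + j b ^ 2) := by
  have h1 := h.w_eq hL b
  have h3 := h.ss_nonneg j b
  set d := dd μ x N b
  set s := ss μ j x N b
  set t := d - s with ht
  have h7 : (0 : ℝ) < 1 - δ := by linarith
  have h8 : 0 < 1 - d := by linarith
  set Dm := (1 - δ) * ((m + 2) / 2) with hDm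
  have hDm0 : 0 < Dm := by positivity
  set D := (1 - d) * ((m + 2) / 2 + j b ^ 2) with hD
  have hDD : Dm ≤ D := by
    rw [hDm, hD]
    have k1 : (m + 2) / 2 ≤ (m + 2) / 2 + j b ^ 2 := by nlinarith [sq_nonneg (j b)]
    exact mul_le_mul (by linarith) k1 (by positivity) h8.le
  have hD0 : 0 < D := hDm0.trans_le hDD
  have hD2 : D = (m + 4) / 2 * (1 - s) + m / 2 * t := by
    rw [hD, ht]
    linear_combination h1
  have e1 : j b ^ 2 / ((m + 2) / 2 + j b ^ 2) = j b ^ 2 * (1 - d) / D := by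
    rw [hD]
    have : (m + 2) / 2 + j b ^ 2 ≠ 0 := by positivity
    field_simp
  have e2 : j b ^ 2 * (1 - d) = 1 - d + (m + 2) * t := by
    rw [ht]
    linear_combination h1
  have e3 : j b ^ 2 / ((m + 2) / 2 + j b ^ 2)
      = 2 / (m + 4) + (m + 2) ^ 2 / (m + 4) * (2 / (m + 4) * t - m / (m + 4) * (t ^ 2 / D)
        + s * (t / D)) := by
    rw [e1, e2]
    have hd2 : d = t + s := by rw [ht]; ring
    have hm4 : m + 4 ≠ 0 := by positivity
    rw [div_eq_iff hD0.ne']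
    have k1 : (2 / (m + 4) + (m + 2) ^ 2 / (m + 4) * (2 / (m + 4) * t - m / (m + 4) * (t ^ 2 / D)
        + s * (t / D))) * D = 2 / (m + 4) * D + (m + 2) ^ 2 / (m + 4) * (2 / (m + 4) * t * D
        - m / (m + 4) * t ^ 2 + s * t) := by
      field_simp
    rw [k1, hD2, hd2]
    field_simp
    ring
  rw [e3]
  have k1 : t ^ 2 / D ≤ t ^ 2 / Dm := div_le_div_of_nonneg_left (sq_nonneg t) hDm0 hDD
  have k2 : -(|t| / Dm) ≤ t / D := by
    have k3 : |t| / D ≤ |t| / Dm := div_le_div_of_nonneg_left (abs_nonneg t) hDm0 hDD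
    have k4 : -(|t| / D) ≤ t / D := by
      rw [← neg_div]
      exact div_le_div_of_nonneg_right (neg_abs_le t) hD0.le
    linarith
  have k5 : m / (m + 4) * (t ^ 2 / D) ≤ m / (m + 4) * t ^ 2 / Dm := by
    rw [mul_div_assoc]
    exact mul_le_mul_of_nonneg_left k1 (by positivity)
  have k6 : -(s * |t| / Dm) ≤ s * (t / D) := by
    have := mul_le_mul_of_nonneg_left k2 h3
    rw [mul_div_assoc]
    linarith
  have k7 : 2 / (m + 4) * t - m / (m + 4) * t ^ 2 / Dm - s * |t| / Dm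
      ≤ 2 / (m + 4) * t - m / (m + 4) * (t ^ 2 / D) + s * (t / D) := by linarith
  have k8 := mul_le_mul_of_nonneg_left k7 (by positivity : 0 ≤ (m + 2) ^ 2 / (m + 4))
  linarith

/-- the sum of the weights from below -/
theorem sum_f_ge (hm : 0 < m) (hL : LSq μ (Matrix.diagonal j) x N) {δ : ℝ} (hδ : 0 ≤ δ)
    (hδ1 : δ < 1) (hf : fro (De μ x N) ≤ δ ^ 2) :
    2 * (m + 2) / (m + 4) - 2 * Ew δ (hh μ (Matrix.diagonal j) x N)
      ≤ ∑ b, j b ^ 2 / ((m + 2) / 2 + j b ^ 2) := by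
  set η := hh μ (Matrix.diagonal j) x N with hη
  have h7 : (0 : ℝ) < 1 - δ := by linarith
  have hη0 : 0 ≤ η := h.hh_nonneg _
  have hs := h.sum_ss j
  rw [← hη] at hs
  have hdle : ∀ b, |dd μ x N b| ≤ δ := h.abs_dd_le hδ hf
  have hs0 : ∀ b, 0 ≤ ss μ j x N b := h.ss_nonneg j
  have hsle : ∀ b, ss μ j x N b ≤ η := by
    intro b
    rw [← hs]
    exact Finset.single_le_sum (f := fun b => ss μ j x N b) (fun b _ => hs0 b) (Finset.mem_univ b)
  set t : ι → ℝ := fun b => dd μ x N b - ss μ j x N b with ht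
  have htle : ∀ b, |t b| ≤ δ + η := by
    intro b
    have h1 := abs_sub (dd μ x N b) (ss μ j x N b)
    rw [abs_of_nonneg (hs0 b)] at h1
    exact h1.trans (add_le_add (hdle b) (hsle b))
  have sumt : ∑ b, t b = -η := by
    rw [ht, Finset.sum_sub_distrib, h.sum_dd, hs, zero_sub]
  have sumt2 : ∑ b, t b ^ 2 ≤ (δ + η) ^ 2 := by
    have k1 : ∑ a, dd μ x N a ^ 2 ≤ δ ^ 2 := h.sum_dd_sq.trans hf
    have k2 : ∑ a, ss μ j x N a ^ 2 ≤ η ^ 2 := by
      rw [← hs]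
      exact Finset.sum_sq_le_sq_sum_of_nonneg fun a _ => hs0 a
    have k3 : (∑ a, dd μ x N a * ss μ j x N a) ^ 2 ≤ δ ^ 2 * η ^ 2 :=
      (Finset.sum_mul_sq_le_sq_mul_sq _ _ _).trans
        (mul_le_mul k1 k2 (Finset.sum_nonneg fun _ _ => sq_nonneg _) (sq_nonneg _))
    have k4 : -(δ * η) ≤ ∑ a, dd μ x N a * ss μ j x N a := by
      rw [← mul_pow] at k3
      exact (abs_le.1 (abs_le_of_sq_le_sq k3 (by positivity))).1
    have k5 : ∑ a, t a ^ 2
        = ∑ a, dd μ x N a ^ 2 - 2 * ∑ a, dd μ x N a * ss μ j x N a + ∑ a, ss μ j x N a ^ 2 := by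
      rw [Finset.mul_sum, ← Finset.sum_sub_distrib, ← Finset.sum_add_distrib]
      exact Finset.sum_congr rfl fun a _ => by simp only [ht]; ring
    rw [k5]
    nlinarith
  have sumst : ∑ b, ss μ j x N b * |t b| ≤ η * (δ + η) := by
    rw [← hs, Finset.sum_mul]
    refine Finset.sum_le_sum fun b _ => mul_le_mul_of_nonneg_left ?_ (hs0 b)
    rw [hs]
    exact htle b
  set Dm := (1 - δ) * ((m + 2) / 2) with hDm
  have hDm0 : 0 < Dm := by positivity
  have e1 := Finset.sum_le_sum fun b (_ : b ∈ Finset.univ) =>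
    f_ge h hm hL hδ1 ((le_abs_self _).trans (hdle b))
  refine le_trans ?_ e1
  rw [Finset.sum_add_distrib, ← Finset.mul_sum, Finset.sum_sub_distrib, Finset.sum_sub_distrib,
    Finset.sum_const, nsmul_eq_mul]
  have hc : ((Finset.univ : Finset ι).card : ℝ) = m + 2 := by
    rw [← h.card]
    rfl
  rw [hc, ← Finset.mul_sum, ← Finset.sum_div, ← Finset.mul_sum, ← Finset.sum_div, sumt]
  have k1 : m / (m + 4) * (∑ b, t b ^ 2) / Dm ≤ m / (m + 4) * (δ + η) ^ 2 / Dm := by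
    gcongr
  have k2 : (∑ b, ss μ j x N b * |t b|) / Dm ≤ η * (δ + η) / Dm := by
    gcongr
  have k3 : 2 / (m + 4) * -η - m / (m + 4) * (δ + η) ^ 2 / Dm - η * (δ + η) / Dm
      ≤ 2 / (m + 4) * -η - m / (m + 4) * (∑ b, t b ^ 2) / Dm
        - (∑ b, ss μ j x N b * |t b|) / Dm := by linarith
  have k4 := mul_le_mul_of_nonneg_left k3 (by positivity : 0 ≤ (m + 2) ^ 2 / (m + 4))
  have e2 : (m + 2) * (2 / (m + 4)) = 2 * (m + 2) / (m + 4) := by ring
  have e3 : -(2 * Ew δ η) ≤ (m + 2) ^ 2 / (m + 4)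
      * (2 / (m + 4) * -η - m / (m + 4) * (δ + η) ^ 2 / Dm - η * (δ + η) / Dm) := by
    have e4 : (m + 2) ^ 2 / (m + 4)
        * (2 / (m + 4) * -η - m / (m + 4) * (δ + η) ^ 2 / Dm - η * (δ + η) / Dm)
        = -(2 * (((m + 2) / (m + 4)) ^ 2 * η
          + (m * (m + 2) / (m + 4) ^ 2) * ((δ + η) ^ 2 / (1 - δ))
          + ((m + 2) / (m + 4)) * (η * (δ + η) / (1 - δ)))) := by
      rw [hDm]
      field_simp
      ring
    rw [e4]
    unfold Ew
    have q1 : ((m + 2) / (m + 4)) ^ 2 ≤ 1 := by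
      refine pow_le_one₀ (by positivity) ?_
      rw [div_le_one (by positivity)]
      linarith
    have q2 : m * (m + 2) / (m + 4) ^ 2 ≤ 1 := by
      rw [div_le_one (by positivity)]
      nlinarith
    have q3 : (m + 2) / (m + 4) ≤ 1 := by
      rw [div_le_one (by positivity)]
      linarith
    have p1 := mul_le_mul_of_nonneg_right q1 hη0
    have p2 := mul_le_mul_of_nonneg_right q2 (by positivity : 0 ≤ (δ + η) ^ 2 / (1 - δ))
    have p3 := mul_le_mul_of_nonneg_right q3 (by positivity : 0 ≤ η * (δ + η) / (1 - δ))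
    rw [add_div]
    linarith
  rw [e2]
  have e5 := e3.trans k4
  simp only [ht] at e5 ⊢
  linarith

/-- **The factor of the mean normal identity from below.** -/
theorem Lw_ge (hm : 0 < m) (hL : LSq μ (Matrix.diagonal j) x N) {δ : ℝ} (hδ : 0 ≤ δ)
    (hδ1 : δ < 1) (hf : fro (De μ x N) ≤ δ ^ 2) (a : ι) :
    m / (m + 1) + (m - 4) / ((m + 1) * (m + 4)) * (j a ^ 2 - 1) + j a * (∑ b, j b) / (m + 1)
      - (m + 4 + 2 * (j a ^ 2 - 1)) / (m + 1) * (2 * Ew δ (hh μ (Matrix.diagonal j) x N))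
      ≤ Lw m j a := by
  have h1 := sum_f_ge h hm hL hδ hδ1 hf
  set E := Ew δ (hh μ (Matrix.diagonal j) x N)
  have e1 : ∑ b, Mw m j a b * j b ^ 2
      = ((m + 2) / 2 + j a ^ 2) * ∑ b, j b ^ 2 / ((m + 2) / 2 + j b ^ 2) := by
    rw [Finset.mul_sum]
    refine Finset.sum_congr rfl fun b _ => ?_
    unfold Mw
    ring
  unfold Lw
  rw [e1]
  set S := ∑ b, j b ^ 2 / ((m + 2) / 2 + j b ^ 2)
  have h2 := mul_le_mul_of_nonneg_left h1 (by positivity :
    0 ≤ 2 / (m + 1) * ((m + 2) / 2 + j a ^ 2))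
  have e2 : m / (m + 1) + (m - 4) / ((m + 1) * (m + 4)) * (j a ^ 2 - 1)
      + j a * (∑ b, j b) / (m + 1)
      - (m + 4 + 2 * (j a ^ 2 - 1)) / (m + 1) * (2 * E)
      = -1 + j a / (m + 1) * ((∑ b, j b) - j a)
        + 2 / (m + 1) * ((m + 2) / 2 + j a ^ 2) * (2 * (m + 2) / (m + 4) - 2 * E)
        - 2 / (m + 1) * j a ^ 2 := by
    field_simp
    ring
  rw [e2]
  linarith

/-- the factor from below, uniformly in the index -/
theorem Lw_ge_min (hm : 0 < m) (hL : LSq μ (Matrix.diagonal j) x N) {δ T E : ℝ} (hδ : 0 ≤ δ)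
    (hδ1 : δ < 1) (hf : fro (De μ x N) ≤ δ ^ 2) (hT : |∑ b, j b| ≤ (m + 1) * T)
    (hE : Ew δ (hh μ (Matrix.diagonal j) x N) ≤ E)
    (hc : T / 2 + 4 * E / (m + 1) ≤ (m - 4) / ((m + 1) * (m + 4))) (a : ι) :
    m / (m + 1) - (m - 4) / ((m + 1) * (m + 4)) - T / 2 - 2 * E * (m + 2) / (m + 1)
      ≤ Lw m j a := by
  refine le_trans ?_ (Lw_ge h hm hL hδ hδ1 hf a)
  set E0 := Ew δ (hh μ (Matrix.diagonal j) x N)
  have hE0 : 0 ≤ E0 := Ew_nonneg hδ hδ1 (h.hh_nonneg _)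
  have hT0 : 0 ≤ T := by
    have := (abs_nonneg _).trans hT
    by_contra hneg
    push Not at hneg
    nlinarith
  have k1 : |j a| ≤ 1 + (j a ^ 2 - 1) / 2 := by
    have := sq_nonneg (|j a| - 1)
    have e := sq_abs (j a)
    nlinarith
  have k2 : -((1 + (j a ^ 2 - 1) / 2) * T) ≤ j a * (∑ b, j b) / (m + 1) := by
    have h1 : |j a * ∑ b, j b| ≤ (1 + (j a ^ 2 - 1) / 2) * ((m + 1) * T) := by
      rw [abs_mul]
      exact mul_le_mul k1 hT (abs_nonneg _) ((abs_nonneg _).trans k1)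
    rw [le_div_iff₀ (by positivity)]
    have := (abs_le.1 h1).1
    linarith
  have k3 : (m + 4 + 2 * (j a ^ 2 - 1)) / (m + 1) * (2 * E0)
      ≤ (m + 4 + 2 * (j a ^ 2 - 1)) / (m + 1) * (2 * E) := by
    refine mul_le_mul_of_nonneg_left (by linarith) ?_
    refine div_nonneg ?_ (by positivity)
    nlinarith [sq_nonneg (j a)]
  have k4 : 0 ≤ ((m - 4) / ((m + 1) * (m + 4)) - T / 2 - 4 * E / (m + 1)) * (j a ^ 2) :=
    mul_nonneg (by linarith) (sq_nonneg _)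
  have e1 : m / (m + 1) + (m - 4) / ((m + 1) * (m + 4)) * (j a ^ 2 - 1)
      - (1 + (j a ^ 2 - 1) / 2) * T
      - (m + 4 + 2 * (j a ^ 2 - 1)) / (m + 1) * (2 * E)
      = m / (m + 1) - (m - 4) / ((m + 1) * (m + 4)) - T / 2 - 2 * E * (m + 2) / (m + 1)
        + ((m - 4) / ((m + 1) * (m + 4)) - T / 2 - 4 * E / (m + 1)) * (j a ^ 2) := by
    field_simp
    ring
  linarith

end

end Vale.Agent.P224.R2.H579
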