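import Vale.Agent.P224.R2.H728.T0k

/-!
The mean normal identity in the eigenbasis without third moments.
-/

namespace Vale.Agent.P224.R2.H579

open MeasureTheory Set Filter Function Real Finset Matrix Vale.Agent.P224.R2.H728

set_option linter.unusedSectionVars false

section

variable {ι Ω : Type*} [Fintype ι] [DecidableEq ι] [MeasurableSpace Ω] {μ : Measure Ω}
  {m : ℝ} {x N : ι → Ω → ℝ} {j : ι → ℝ}

/-- the weights `M a b` of the identity -/
noncomputable def Mw (m : ℝ) (j : ι → ℝ) (a b : ι) : ℝ :=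
  ((m + 2) / 2 + j a ^ 2) / ((m + 2) / 2 + j b ^ 2)

/-- the weights of the second identity -/
noncomputable def Pw (m : ℝ) (j : ι → ℝ) (a b : ι) : ℝ :=
  ((m + 2) / 2 + j a * j b) / ((m + 2) / 2 + j b ^ 2)

lemma Mw_self (hm : 0 < m) (j : ι → ℝ) (a : ι) : Mw m j a a = 1 := by
  unfold Mw
  exact div_self (by positivity)

lemma Pw_self (hm : 0 < m) (j : ι → ℝ) (a : ι) : Pw m j a a = 1 := by
  unfold Pw
  rw [← sq]
  exact div_self (by positivity)

/-- separation of a weighted square sum -/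
lemma int_sqw [IsFiniteMeasure μ] {k : Ω → ℝ} {f g : ι → Ω → ℝ} (hk : BM k)
    (hf : ∀ a, BM (f a)) (hg : ∀ a, BM (g a)) (d : ι → ℝ) :
    ∫ ω, k ω * sqw d f g ω ∂μ = ∑ b, d b * ∫ ω, k ω * (f b ω * g b ω) ∂μ := by
  have e : ∀ ω, k ω * sqw d f g ω = ∑ b, d b * (k ω * (f b ω * g b ω)) := by
    intro ω
    unfold sqw
    rw [Finset.mul_sum]
    exact Finset.sum_congr rfl fun b _ => by ring
  simp_rw [e]
  rw [integral_finsetSum _ fun b _ => ((hk.mul ((hf b).mul (hg b))).const_mul (d b)).int]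
  exact Finset.sum_congr rfl fun b _ => integral_const_mul _ _

lemma lin4 [IsFiniteMeasure μ] {f g k l F : Ω → ℝ} (hf : BM f) (hg : BM g) (hk : BM k) (hl : BM l)
    (α β γ δ : ℝ) (hF : ∀ ω, F ω = α * f ω + β * g ω + γ * k ω + δ * l ω) :
    ∫ ω, F ω ∂μ = α * ∫ ω, f ω ∂μ + β * ∫ ω, g ω ∂μ + γ * ∫ ω, k ω ∂μ + δ * ∫ ω, l ω ∂μ := by
  have e : F = fun ω => (α * f ω + β * g ω + γ * k ω) + δ * l ω := funext hF
  rw [e, integral_add (((hf.const_mul α).add (hg.const_mul β)).add (hk.const_mul γ)).int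
    (hl.const_mul δ).int, integral_add ((hf.const_mul α).add (hg.const_mul β)).int
    (hk.const_mul γ).int, integral_add (hf.const_mul α).int (hg.const_mul β).int,
    integral_const_mul, integral_const_mul, integral_const_mul, integral_const_mul]

variable (h : T0Data μ m x N)
include h

/-- the three families of third moments at the index `a` -/
lemma sumX (a : ι) : ∑ b, ∫ ω, x a ω * (x b ω * x b ω) ∂μ = 0 := by
  have := h.prob
  have h1 := int_sqw (μ := μ) (h.bx a) h.bx h.bx fun _ => 1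
  simp only [one_mul] at h1
  rw [← h1, ← h.r1 a]
  refine integral_congr_ae (Eventually.of_forall fun ω => ?_)
  have e : sqw (fun _ => 1) x x ω = 1 := by
    refine Eq.trans ?_ (h.ux ω)
    unfold sqw
    exact Finset.sum_congr rfl fun b _ => by ring
  simp only [e, mul_one]

lemma sumS (a : ι) : ∑ b, ∫ ω, x a ω * (x b ω * N b ω) ∂μ = 0 := by
  have := h.prob
  have h1 := int_sqw (μ := μ) (h.bx a) h.bx h.bN fun _ => 1
  simp only [one_mul] at h1
  rw [← h1]
  have e : ∀ ω, sqw (fun _ => 1) x N ω = 0 := by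
    intro ω
    rw [← h.xN ω]
    unfold sqw
    exact Finset.sum_congr rfl fun b _ => by ring
  simp only [e, mul_zero, integral_zero]

lemma sumNN (a : ι) : ∑ b, ∫ ω, N a ω * (N b ω * N b ω) ∂μ = m1 μ N a := by
  have := h.prob
  have h1 := int_sqw (μ := μ) (h.bN a) h.bN h.bN fun _ => 1
  simp only [one_mul] at h1
  rw [← h1]
  refine integral_congr_ae (Eventually.of_forall fun ω => ?_)
  have e : sqw (fun _ => 1) N N ω = 1 := by
    refine Eq.trans ?_ (h.uN ω)
    unfold sqw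
    exact Finset.sum_congr rfl fun b _ => by ring
  simp only [e, mul_one]

/-- the rows of third moments -/
lemma rowBS (a b : ι) : (m + 1) * (∫ ω, N a ω * (x b ω * x b ω) ∂μ
    - ∫ ω, x a ω * (x b ω * N b ω) ∂μ) = m1 μ N a - if a = b then m1 μ N a else 0 := by
  have h1 := h.r4 a b b
  have e1 : ∫ ω, N a ω * x b ω * x b ω ∂μ = ∫ ω, N a ω * (x b ω * x b ω) ∂μ :=
    integral_congr_ae (Eventually.of_forall fun ω => by ring)
  have e2 : ∫ ω, N b ω * x a ω * x b ω ∂μ = ∫ ω, x a ω * (x b ω * N b ω) ∂μ :=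
    integral_congr_ae (Eventually.of_forall fun ω => by ring)
  rw [e1, e2] at h1
  rw [h1]
  change m1 μ N a * _ - m1 μ N b * _ = _
  rcases eq_or_ne a b with rfl | hab
  · simp
  · simp [hab]

lemma rowNNx (a b : ι) : ∫ ω, x b ω * (N a ω * N b ω) ∂μ
    = -((m + 2) / 2) * ∫ ω, x a ω * (x b ω * x b ω) ∂μ := by
  have h1 := h.r5 a b b
  have e1 : ∫ ω, x a ω * x b ω * x b ω ∂μ = ∫ ω, x a ω * (x b ω * x b ω) ∂μ :=
    integral_congr_ae (Eventually.of_forall fun ω => by ring)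
  have e2 : ∫ ω, N a ω * N b ω * x b ω ∂μ = ∫ ω, x b ω * (N a ω * N b ω) ∂μ :=
    integral_congr_ae (Eventually.of_forall fun ω => by ring)
  rw [e1, e2] at h1
  linarith

lemma rowNbNb (a b : ι) : ∫ ω, x a ω * (N b ω * N b ω) ∂μ
    = -((m + 2) / 2) * ∫ ω, x a ω * (x b ω * x b ω) ∂μ := by
  have h1 := h.r5 b b a
  have e1 : ∫ ω, x b ω * x b ω * x a ω ∂μ = ∫ ω, x a ω * (x b ω * x b ω) ∂μ :=
    integral_congr_ae (Eventually.of_forall fun ω => by ring)
  have e2 : ∫ ω, N b ω * N b ω * x a ω ∂μ = ∫ ω, x a ω * (N b ω * N b ω) ∂μ :=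
    integral_congr_ae (Eventually.of_forall fun ω => by ring)
  have e3 : ∫ ω, N b ω * N a ω * x b ω ∂μ = ∫ ω, x b ω * (N a ω * N b ω) ∂μ :=
    integral_congr_ae (Eventually.of_forall fun ω => by ring)
  rw [e1, e2, e3, rowNNx h a b] at h1
  linarith

/-- the moment `E x_a z_b^2` -/
lemma mom_Z (j : ι → ℝ) (a b : ι) : ∫ ω, x a ω * (zd j x N b ω * zd j x N b ω) ∂μ
    = (j b ^ 2 - (m + 2) / 2) * ∫ ω, x a ω * (x b ω * x b ω) ∂μ
      - 2 * j b * ∫ ω, x a ω * (x b ω * N b ω) ∂μ := by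
  have := h.prob
  have h1 := lin4 (μ := μ) (F := fun ω => x a ω * (zd j x N b ω * zd j x N b ω))
    ((h.bx a).mul ((h.bN b).mul (h.bN b)))
    ((h.bx a).mul ((h.bx b).mul (h.bN b))) ((h.bx a).mul ((h.bx b).mul (h.bx b)))
    (BM.const 0) 1 (-2 * j b) (j b ^ 2) 0 (fun ω => by simp only [zd]; ring)
  rw [h1, rowNbNb h a b]
  ring

/-- the moment `E z_a z_b x_b` -/
lemma mom_Y (j : ι → ℝ) (a b : ι) : ∫ ω, zd j x N a ω * (zd j x N b ω * x b ω) ∂μ
    = (j a * j b - (m + 2) / 2) * ∫ ω, x a ω * (x b ω * x b ω) ∂μ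
      - j b * ∫ ω, N a ω * (x b ω * x b ω) ∂μ
      - j a * ∫ ω, x a ω * (x b ω * N b ω) ∂μ := by
  have := h.prob
  have h1 := lin4 (μ := μ) (F := fun ω => zd j x N a ω * (zd j x N b ω * x b ω))
    ((h.bx b).mul ((h.bN a).mul (h.bN b)))
    ((h.bN a).mul ((h.bx b).mul (h.bx b))) ((h.bx a).mul ((h.bx b).mul (h.bN b)))
    ((h.bx a).mul ((h.bx b).mul (h.bx b)))
    1 (-j b) (-j a) (j a * j b) (fun ω => by simp only [zd]; ring)
  rw [h1, rowNNx h a b]
  ring

/-- the moment `E N_a z_b^2` -/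
lemma mom_N (j : ι → ℝ) (a b : ι) : ∫ ω, N a ω * (zd j x N b ω * zd j x N b ω) ∂μ
    = ∫ ω, N a ω * (N b ω * N b ω) ∂μ
      + (m + 2) * j b * ∫ ω, x a ω * (x b ω * x b ω) ∂μ
      + j b ^ 2 * ∫ ω, N a ω * (x b ω * x b ω) ∂μ := by
  have := h.prob
  have h1 := lin4 (μ := μ) (F := fun ω => N a ω * (zd j x N b ω * zd j x N b ω))
    ((h.bN a).mul ((h.bN b).mul (h.bN b)))
    ((h.bx b).mul ((h.bN a).mul (h.bN b))) ((h.bN a).mul ((h.bx b).mul (h.bx b)))
    (BM.const 0) 1 (-2 * j b) (j b ^ 2) 0 (fun ω => by simp only [zd]; ring)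
  rw [h1, rowNNx h a b]
  ring

/-- **The mean normal identity** with the quadratic right hand side. -/
theorem mean_seven (hm : 0 < m) (j : ι → ℝ) (a : ι) :
    (-1 + j a / (m + 1) * ((∑ b, j b) - j a)
        + 2 / (m + 1) * ((∑ b, Mw m j a b * j b ^ 2) - j a ^ 2)) * m1 μ N a
      = -∫ ω, zd j x N a ω * sqw (fun _ => 1) (zd j x N) (zd j x N) ω ∂μ
        + ∫ ω, x a ω * sqw (fun b => Mw m j a b * (j b + j a)) (zd j x N) (zd j x N) ω ∂μ
        - j a * ∫ ω, zd j x N a ω * sqw (fun _ => 1) (zd j x N) x ω ∂μ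
        - ∫ ω, zd j x N a ω * sqw (fun b => (1 + 2 * Mw m j a b) * j b) (zd j x N) x ω ∂μ := by
  have := h.prob
  have bz := h.bzd j
  set X : ι → ℝ := fun b => ∫ ω, x a ω * (x b ω * x b ω) ∂μ with hX
  set S : ι → ℝ := fun b => ∫ ω, x a ω * (x b ω * N b ω) ∂μ with hS
  set B : ι → ℝ := fun b => ∫ ω, N a ω * (x b ω * x b ω) ∂μ with hB
  set Q : ι → ℝ := fun b => ∫ ω, N a ω * (N b ω * N b ω) ∂μ with hQ
  have sX : ∑ b, X b = 0 := sumX h a
  have sS : ∑ b, S b = 0 := sumS h a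
  have sQ : ∑ b, Q b = m1 μ N a := sumNN h a
  have i0 : ∫ ω, zd j x N a ω * sqw (fun _ => 1) (zd j x N) (zd j x N) ω ∂μ
      = ∑ b, (Q b + (m + 2) * j b * X b + j b ^ 2 * B b
        - j a * ((j b ^ 2 - (m + 2) / 2) * X b - 2 * j b * S b)) := by
    have h1 := lin4 (μ := μ)
      (F := fun ω => zd j x N a ω * sqw (fun _ => 1) (zd j x N) (zd j x N) ω)
      ((h.bN a).mul (BM.sqw bz bz fun _ => 1)) ((h.bx a).mul (BM.sqw bz bz fun _ => 1))
      (BM.const 0) (BM.const 0) 1 (-j a) 0 0 (fun ω => by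
        have : zd j x N a ω = N a ω - j a * x a ω := rfl
        rw [this]
        ring)
    rw [h1, int_sqw (h.bN a) bz bz, int_sqw (h.bx a) bz bz]
    simp only [zero_mul, add_zero, one_mul]
    rw [Finset.mul_sum, ← Finset.sum_add_distrib]
    refine Finset.sum_congr rfl fun b _ => ?_
    rw [mom_N h j a b, mom_Z h j a b]
    ring
  rw [i0, int_sqw (h.bx a) bz bz, int_sqw (bz a) bz h.bx, int_sqw (bz a) bz h.bx]
  simp only [mom_Z h j a, mom_Y h j a, one_mul]
  have key : ∀ b, -(Q b + (m + 2) * j b * X b + j b ^ 2 * B b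
        - j a * ((j b ^ 2 - (m + 2) / 2) * X b - 2 * j b * S b))
      + Mw m j a b * (j b + j a) * ((j b ^ 2 - (m + 2) / 2) * X b - 2 * j b * S b)
      - j a * ((j a * j b - (m + 2) / 2) * X b - j b * B b - j a * S b)
      - (1 + 2 * Mw m j a b) * j b * ((j a * j b - (m + 2) / 2) * X b - j b * B b - j a * S b)
      = -Q b + (-(((m + 2) / 2 + j a ^ 2) * j a)) * X b + j a ^ 2 * S b
        + (j a * j b + 2 * Mw m j a b * j b ^ 2) * (B b - S b) := by
    intro b
    have h2 : Mw m j a b * ((m + 2) / 2 + j b ^ 2) = (m + 2) / 2 + j a ^ 2 := by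
      unfold Mw
      have : (m + 2) / 2 + j b ^ 2 ≠ 0 := by positivity
      field_simp
    linear_combination ((j b - j a) * X b) * h2
  have key2 : ∀ b, (j a * j b + 2 * Mw m j a b * j b ^ 2) * (B b - S b)
      = (j a * j b + 2 * Mw m j a b * j b ^ 2) * m1 μ N a / (m + 1)
        - (if a = b then (j a * j b + 2 * Mw m j a b * j b ^ 2) * m1 μ N a / (m + 1) else 0) := by
    intro b
    have h3 : (m + 1) * (B b - S b) = m1 μ N a - if a = b then m1 μ N a else 0 := rowBS h a b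
    have hm1 : m + 1 ≠ 0 := by positivity
    clear_value B S X
    rcases eq_or_ne a b with rfl | hab
    · simp only [if_true, sub_self] at h3 ⊢
      rcases mul_eq_zero.1 h3 with h4 | h4
      · exact absurd h4 hm1
      · rw [h4, mul_zero]
    · simp only [hab, if_false, sub_zero] at h3 ⊢
      rw [← h3]
      field_simp
  have tot : ∑ b, (-(Q b + (m + 2) * j b * X b + j b ^ 2 * B b
        - j a * ((j b ^ 2 - (m + 2) / 2) * X b - 2 * j b * S b))
      + Mw m j a b * (j b + j a) * ((j b ^ 2 - (m + 2) / 2) * X b - 2 * j b * S b)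
      - j a * ((j a * j b - (m + 2) / 2) * X b - j b * B b - j a * S b)
      - (1 + 2 * Mw m j a b) * j b * ((j a * j b - (m + 2) / 2) * X b - j b * B b - j a * S b))
      = (-1 + j a / (m + 1) * ((∑ b, j b) - j a)
        + 2 / (m + 1) * ((∑ b, Mw m j a b * j b ^ 2) - j a ^ 2)) * m1 μ N a := by
    simp_rw [key, key2]
    rw [Finset.sum_add_distrib, Finset.sum_add_distrib, Finset.sum_add_distrib,
      Finset.sum_sub_distrib, Finset.sum_neg_distrib, ← Finset.mul_sum, ← Finset.mul_sum, sX, sS,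
      sQ, Finset.sum_ite_eq]
    simp only [Finset.mem_univ, if_true, Mw_self hm]
    have e1 : ∑ b, (j a * j b + 2 * Mw m j a b * j b ^ 2) * m1 μ N a / (m + 1)
        = (j a * (∑ b, j b) + 2 * ∑ b, Mw m j a b * j b ^ 2) * m1 μ N a / (m + 1) := by
      rw [Finset.mul_sum, Finset.mul_sum, ← Finset.sum_add_distrib, Finset.sum_mul,
        Finset.sum_div]
      exact Finset.sum_congr rfl fun b _ => by ring
    rw [e1]
    have hm1 : m + 1 ≠ 0 := by positivity
    field_simp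
    ring
  rw [← tot, ← Finset.sum_neg_distrib, Finset.mul_sum, ← Finset.sum_add_distrib,
    ← Finset.sum_sub_distrib, ← Finset.sum_sub_distrib]

/-- the second identity, which may be added with any coefficient depending on `a` -/
theorem mean_lam (hm : 0 < m) (j : ι → ℝ) (a : ι) :
    2 / (m + 1) * ((∑ b, Pw m j a b * j b) - j a) * m1 μ N a
      = ∫ ω, x a ω * sqw (fun b => Mw m j a b) (zd j x N) (zd j x N) ω ∂μ
        - 2 * ∫ ω, zd j x N a ω * sqw (fun b => Pw m j a b) (zd j x N) x ω ∂μ := by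
  have := h.prob
  have bz := h.bzd j
  set X : ι → ℝ := fun b => ∫ ω, x a ω * (x b ω * x b ω) ∂μ with hX
  set S : ι → ℝ := fun b => ∫ ω, x a ω * (x b ω * N b ω) ∂μ with hS
  set B : ι → ℝ := fun b => ∫ ω, N a ω * (x b ω * x b ω) ∂μ with hB
  have sX : ∑ b, X b = 0 := sumX h a
  have sS : ∑ b, S b = 0 := sumS h a
  rw [int_sqw (h.bx a) bz bz, int_sqw (bz a) bz h.bx]
  simp only [mom_Z h j a, mom_Y h j a]
  have key : ∀ b, Mw m j a b * ((j b ^ 2 - (m + 2) / 2) * X b - 2 * j b * S b)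
      - 2 * (Pw m j a b * ((j a * j b - (m + 2) / 2) * X b - j b * B b - j a * S b))
      = ((m + 2) / 2 - j a ^ 2) * X b + 2 * j a * S b + 2 * Pw m j a b * j b * (B b - S b) := by
    intro b
    have h0 : (m + 2) / 2 + j b ^ 2 ≠ 0 := by positivity
    unfold Mw Pw
    field_simp
    ring
  have key2 : ∀ b, 2 * Pw m j a b * j b * (B b - S b)
      = 2 * Pw m j a b * j b * m1 μ N a / (m + 1)
        - (if a = b then 2 * Pw m j a b * j b * m1 μ N a / (m + 1) else 0) := by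
    intro b
    have h3 : (m + 1) * (B b - S b) = m1 μ N a - if a = b then m1 μ N a else 0 := rowBS h a b
    have hm1 : m + 1 ≠ 0 := by positivity
    clear_value B S X
    rcases eq_or_ne a b with rfl | hab
    · simp only [if_true, sub_self] at h3 ⊢
      rcases mul_eq_zero.1 h3 with h4 | h4
      · exact absurd h4 hm1
      · rw [h4, mul_zero]
    · simp only [hab, if_false, sub_zero] at h3 ⊢
      rw [← h3]
      field_simp
  have tot : ∑ b, (Mw m j a b * ((j b ^ 2 - (m + 2) / 2) * X b - 2 * j b * S b)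
      - 2 * (Pw m j a b * ((j a * j b - (m + 2) / 2) * X b - j b * B b - j a * S b)))
      = 2 / (m + 1) * ((∑ b, Pw m j a b * j b) - j a) * m1 μ N a := by
    simp_rw [key, key2]
    rw [Finset.sum_add_distrib, Finset.sum_add_distrib, Finset.sum_sub_distrib,
      ← Finset.mul_sum, ← Finset.mul_sum, sX, sS, Finset.sum_ite_eq]
    simp only [Finset.mem_univ, if_true, Pw_self hm]
    have e1 : ∑ b, 2 * Pw m j a b * j b * m1 μ N a / (m + 1)
        = 2 * (∑ b, Pw m j a b * j b) * m1 μ N a / (m + 1) := by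
      rw [Finset.mul_sum, Finset.sum_mul, Finset.sum_div]
      exact Finset.sum_congr rfl fun b _ => by ring
    rw [e1]
    have hm1 : m + 1 ≠ 0 := by positivity
    field_simp
    ring
  rw [← tot, Finset.sum_sub_distrib, Finset.mul_sum]

end

end Vale.Agent.P224.R2.H579
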