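import Vale.Agent.P224.R2.H579.MeanSeven

/-!
The mean normal law: the identity contracted with a vector and the bound from a pointwise lemma.
-/

namespace Vale.Agent.P224.R2.H579

open MeasureTheory Set Filter Function Real Finset Matrix Vale.Agent.P224.R2.H728

set_option linter.unusedSectionVars false

section

variable {ι Ω : Type*} [Fintype ι] [DecidableEq ι] [MeasurableSpace Ω] {μ : Measure Ω}
  {m : ℝ} {x N : ι → Ω → ℝ} {j : ι → ℝ}

/-- the factor on the left of the mean normal identity -/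
noncomputable def Lw (m : ℝ) (j : ι → ℝ) (a : ι) : ℝ :=
  -1 + j a / (m + 1) * ((∑ b, j b) - j a)
    + 2 / (m + 1) * ((∑ b, Mw m j a b * j b ^ 2) - j a ^ 2)

/-- the integrand on the right, as a function of two vectors -/
noncomputable def G7 (m : ℝ) (j : ι → ℝ) (u n : ι → ℝ) (a : ι) : ℝ :=
  -(n a - j a * u a) * (∑ b, (n b - j b * u b) ^ 2)
    + u a * (∑ b, Mw m j a b * (j b + j a) * (n b - j b * u b) ^ 2)
    - j a * (n a - j a * u a) * (∑ b, (n b - j b * u b) * u b)
    - (n a - j a * u a) * (∑ b, (1 + 2 * Mw m j a b) * j b * ((n b - j b * u b) * u b))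

variable (h : T0Data μ m x N)
include h

/-- the integrand along the data -/
lemma G7_eq (j : ι → ℝ) (a : ι) (ω : Ω) : G7 m j (fun b => x b ω) (fun b => N b ω) a
    = -(zd j x N a ω * sqw (fun _ => 1) (zd j x N) (zd j x N) ω)
      + x a ω * sqw (fun b => Mw m j a b * (j b + j a)) (zd j x N) (zd j x N) ω
      - j a * (zd j x N a ω * sqw (fun _ => 1) (zd j x N) x ω)
      - zd j x N a ω * sqw (fun b => (1 + 2 * Mw m j a b) * j b) (zd j x N) x ω := by
  unfold G7 sqw zd
  simp only [one_mul, sq]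
  ring

lemma bm_G7 (j : ι → ℝ) (a : ι) : BM fun ω => G7 m j (fun b => x b ω) (fun b => N b ω) a := by
  have bz := h.bzd j
  simp only [G7_eq h]
  exact (((((bz a).mul (BM.sqw bz bz _)).neg).add ((h.bx a).mul (BM.sqw bz bz _))).sub
    (((bz a).mul (BM.sqw bz h.bx _)).const_mul _)).sub ((bz a).mul (BM.sqw bz h.bx _))

/-- the mean normal identity in one integral -/
theorem mean_G7 (hm : 0 < m) (j : ι → ℝ) (a : ι) :
    Lw m j a * m1 μ N a = ∫ ω, G7 m j (fun b => x b ω) (fun b => N b ω) a ∂μ := by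
  have := h.prob
  have bz := h.bzd j
  simp only [G7_eq h]
  have b1 := (bz a).mul (BM.sqw bz bz fun _ => 1)
  have b2 := (h.bx a).mul (BM.sqw bz bz fun b => Mw m j a b * (j b + j a))
  have b3 := (bz a).mul (BM.sqw bz h.bx fun _ => 1)
  have b4 := (bz a).mul (BM.sqw bz h.bx fun b => (1 + 2 * Mw m j a b) * j b)
  rw [integral_sub ((b1.neg.add b2).sub (b3.const_mul _)).int b4.int,
    integral_sub (b1.neg.add b2).int (b3.const_mul _).int,
    integral_add b1.neg.int b2.int, integral_neg, integral_const_mul]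
  exact mean_seven h hm j a

/-- the identity contracted with a vector -/
theorem mean_G7_pair (hm : 0 < m) (j v : ι → ℝ) :
    ∑ a, v a * (Lw m j a * m1 μ N a)
      = ∫ ω, ∑ a, v a * G7 m j (fun b => x b ω) (fun b => N b ω) a ∂μ := by
  have := h.prob
  rw [integral_finsetSum _ fun a _ => ((bm_G7 h j a).const_mul (v a)).int]
  refine Finset.sum_congr rfl fun a _ => ?_
  rw [mean_G7 h hm, integral_const_mul]

/-- the mean normal law from any pointwise bound of the contracted integrand -/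
theorem law7_gen (hm : 0 < m) (j : ι → ℝ) {Φ : Ω → ℝ} (hΦ : BM Φ)
    (hP : ∀ (v : ι → ℝ) (ω : Ω), ∑ a, v a * G7 m j (fun b => x b ω) (fun b => N b ω) a
      ≤ √(∑ a, v a ^ 2) * Φ ω) :
    √(∑ a, (Lw m j a * m1 μ N a) ^ 2) ≤ ∫ ω, Φ ω ∂μ := by
  have := h.prob
  set v : ι → ℝ := fun a => Lw m j a * m1 μ N a with hv
  have h1 := mean_G7_pair h hm j v
  have h2 : ∫ ω, ∑ a, v a * G7 m j (fun b => x b ω) (fun b => N b ω) a ∂μ
      ≤ ∫ ω, √(∑ a, v a ^ 2) * Φ ω ∂μ :=
    integral_mono (BM.sum _ fun a _ => (bm_G7 h j a).const_mul (v a)).int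
      (hΦ.const_mul _).int fun ω => hP v ω
  rw [← h1, integral_const_mul] at h2
  have h3 : ∑ a, v a * (Lw m j a * m1 μ N a) = √(∑ a, v a ^ 2) * √(∑ a, v a ^ 2) := by
    rw [Real.mul_self_sqrt (Finset.sum_nonneg fun a _ => sq_nonneg _)]
    exact Finset.sum_congr rfl fun a _ => by rw [hv]; ring
  rw [h3] at h2
  rcases (Real.sqrt_nonneg (∑ a, v a ^ 2)).eq_or_lt with h4 | h4
  · change √(∑ a, v a ^ 2) ≤ _
    rw [← h4]
    have h5 : ∀ ω, 0 ≤ Φ ω := by
      intro ω
      by_contra hneg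
      push Not at hneg
      obtain ⟨a⟩ : Nonempty ι := by
        by_contra hE
        rw [not_nonempty_iff] at hE
        have h6 := h.ux ω
        rw [Finset.univ_eq_empty, Finset.sum_empty] at h6
        norm_num at h6
      have h7 := hP (fun b => if b = a then 1 else 0) ω
      have h8 := hP (fun b => if b = a then -1 else 0) ω
      have e1 : ∑ b, (if b = a then (1 : ℝ) else 0) ^ 2 = 1 := by simp
      have e2 : ∑ b, (if b = a then (-1 : ℝ) else 0) ^ 2 = 1 := by simp
      rw [e1, Real.sqrt_one, one_mul] at h7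
      rw [e2, Real.sqrt_one, one_mul] at h8
      have e3 : ∑ b, (if b = a then (1 : ℝ) else 0)
          * G7 m j (fun b => x b ω) (fun b => N b ω) b
          = G7 m j (fun b => x b ω) (fun b => N b ω) a := by simp
      have e4 : ∑ b, (if b = a then (-1 : ℝ) else 0)
          * G7 m j (fun b => x b ω) (fun b => N b ω) b
          = -G7 m j (fun b => x b ω) (fun b => N b ω) a := by simp
      rw [e3] at h7
      rw [e4] at h8
      linarith
    exact integral_nonneg h5
  · exact le_of_mul_le_mul_left h2 h4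

lemma hh_diag (j : ι → ℝ) : hh μ (diagonal j) x N
    = ∫ ω, ∑ b, (N b ω - j b * x b ω) ^ 2 ∂μ := by
  unfold hh
  refine integral_congr_ae (Eventually.of_forall fun ω => ?_)
  simp only [et_diag, dotProduct, zd]
  exact Finset.sum_congr rfl fun b _ => (sq _).symm

/-- the mean normal law with a constant -/
theorem law7 (hm : 0 < m) (j : ι → ℝ) {K : ℝ}
    (hP : ∀ (v : ι → ℝ) (ω : Ω), ∑ a, v a * G7 m j (fun b => x b ω) (fun b => N b ω) a
      ≤ K * √(∑ a, v a ^ 2) * ∑ b, (N b ω - j b * x b ω) ^ 2) :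
    √(∑ a, (Lw m j a * m1 μ N a) ^ 2) ≤ K * hh μ (diagonal j) x N := by
  have := h.prob
  have bz := h.bzd j
  have hb : BM fun ω => ∑ b, (N b ω - j b * x b ω) ^ 2 :=
    BM.sum _ fun b _ => (bz b).pow 2
  have h1 := law7_gen h hm j (hb.const_mul K) fun v ω => by
    have := hP v ω
    calc _ ≤ _ := this
      _ = _ := by ring
  rwa [integral_const_mul, ← hh_diag h j] at h1

/-- the mean normal law with a lower bound of the factors -/
theorem law7_min (hm : 0 < m) (j : ι → ℝ) {K L : ℝ} (hL0 : 0 ≤ L) (hL : ∀ a, L ≤ Lw m j a)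
    (hP : ∀ (v : ι → ℝ) (ω : Ω), ∑ a, v a * G7 m j (fun b => x b ω) (fun b => N b ω) a
      ≤ K * √(∑ a, v a ^ 2) * ∑ b, (N b ω - j b * x b ω) ^ 2) :
    L * √(∑ a, m1 μ N a ^ 2) ≤ K * hh μ (diagonal j) x N := by
  refine le_trans ?_ (law7 h hm j hP)
  rw [← Real.sqrt_sq hL0, ← Real.sqrt_mul (sq_nonneg L)]
  refine Real.sqrt_le_sqrt ?_
  rw [Finset.mul_sum]
  refine Finset.sum_le_sum fun a _ => ?_
  rw [mul_pow]
  exact mul_le_mul_of_nonneg_right (pow_le_pow_left₀ hL0 (hL a) 2) (sq_nonneg _)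

end

end Vale.Agent.P224.R2.H579
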