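import Vale.Agent.P224.UE.FunE

/-!
The null row of the two point method in the direction of a fixed vector.
-/

namespace Vale.Agent.P224.R2.H579

open MeasureTheory Set Filter Function Vale.Agent.P224.UE
open Vale.Agent.P224.SM2 hiding ker
open scoped Topology RealInnerProductSpace

set_option linter.unusedSectionVars false

section

variable {X : Type*} [MeasurableSpace X] {E : Type*} [NormedAddCommGroup E]
  [InnerProductSpace ℝ E] [MeasurableSpace E] [BorelSpace E] [SecondCountableTopology E]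
  {μ : Measure X} [IsFiniteMeasure μ] {m : ℕ} {p n : X → E}

lemma Null.congr (h : FV.Pts p n) {e : E} {f g : R9 → ℝ} (hf : Null μ p n e f)
    (hfg : ∀ d ∈ KE (bE e), f d = g d) : Null μ p n e g := by
  have e1 : (fun q => g (dat p n e q)) = fun q => f (dat p n e q) :=
    funext fun q => (hfg _ (dat_mem h e q)).symm
  refine ⟨?_, ?_⟩
  · rw [e1]
    exact hf.1
  · rw [e1]
    exact hf.2

lemma ker_succ {T s : ℝ} (hv : 1 - T * s ≠ 0) (q : ℕ) :
    SM2.ker T q s = (1 - T * s) * SM2.ker T (q + 1) s := by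
  unfold SM2.ker
  rw [pow_succ]
  field_simp

/-- the general null row, with an arbitrary power of the kernel -/
theorem null_gen (h : TwoE μ m p n) (e : E) {T : ℝ} (hT : T ∈ Ioo (0 : ℝ) 1) (q : ℕ) :
    Null μ p n e (fun d => q * SM2.ker T (q + 1) (d 0)
        * ((d 2 - d 1) * ((1 + d 3) * (d 6 - d 7) + (d 2 * d 5 - d 1 * d 4)))
      - ((m : ℝ) + 1 - q) * SM2.ker T q (d 0)
        * ((1 + d 3) * (d 1 * d 6 + d 2 * d 7) - (d 4 * d 1 ^ 2 + d 5 * d 2 ^ 2))) := by
  have hw : Continuous (uncurry (fun _ _ : ℝ => (1 : ℝ))) := continuous_const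
  have hA := (h.null_row e hT 1 q 0 1 hw).const_mul (1 - T)
  have hB := (h.null_row e hT 2 q 1 0 hw).const_mul (-1)
  have hC := (h.null_row e hT 5 q 1 0 hw).const_mul (-T)
  have hS := (hA.add hB).add hC
  have hR := (hS.add hS.swap).const_mul (-T⁻¹)
  refine Null.congr h.toPts hR fun d hd => ?_
  have hv : 1 - T * d 0 ≠ 0 := (one_sub_pos' ⟨hT.1.le, hT.2⟩ hd.2.2).ne'
  have hT0 : T ≠ 0 := hT.1.ne'
  have hk := ker_succ hv q
  simp only [rT, rowT, rowE, sw9, Matrix.cons_val_zero, Matrix.cons_val_one, Matrix.cons_val]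
  generalize SM2.ker T (q + 1) (d 0) = k1 at hk ⊢
  generalize SM2.ker T q (d 0) = k0 at hk ⊢
  subst hk
  simp only [pow_zero, pow_one, Nat.cast_zero, Nat.cast_one, Nat.sub_self, zero_mul, mul_zero,
    one_mul, mul_one]
  field_simp
  ring

/-- **The null row** at the kernel of degree `m + 2`. -/
theorem null_row204 (h : TwoE μ m p n) (e : E) {T : ℝ} (hT : T ∈ Ioo (0 : ℝ) 1) :
    Null μ p n e (fun d => SM2.ker T (m + 2) (d 0)
      * ((d 2 - d 1) * ((1 + d 3) * (d 6 - d 7) + (d 2 * d 5 - d 1 * d 4)))) := by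
  have h1 := (null_gen h e hT (m + 1)).const_mul ((m : ℝ) + 1)⁻¹
  refine Null.congr h.toPts h1 fun d _ => ?_
  have hm : (m : ℝ) + 1 ≠ 0 := by positivity
  push_cast
  field_simp
  ring

end

end Vale.Agent.P224.R2.H579
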